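import Vale.Agent.P309.Cover

/-! The moment method over fibres. -/

open MeasureTheory ProbabilityTheory Set Metric Module Filter
open scoped ENNReal NNReal RealInnerProductSpace

namespace Vale.Agent.P309

variable {E : Type*} [NormedAddCommGroup E] [InnerProductSpace ℝ E] [FiniteDimensional ℝ E]
  [MeasurableSpace E] [BorelSpace E] {k : ℕ}

variable (E) in
/-- Law of `k` independent Gaussian rows. -/
noncomputable abbrev Gam (k : ℕ) : Measure (Fin k → E) := Measure.pi fun _ => stdGaussian E

/-- Labels. -/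
def obs (X : Fin k → E) (s : E) : Fin k → ℝ := fun i => ⟪X i, s⟫

/-- Approximate fibre. -/
def TT (X : Fin k → E) (a : E) (δ : ℝ) : Set E := {s | ∀ i, |⟪X i, s - a⟫| ≤ δ}

lemma measurable_obs : Measurable fun p : (Fin k → E) × E => obs p.1 p.2 :=
  measurable_pi_lambda _ fun i => by unfold obs; fun_prop

lemma measurableSet_TT3 (δ : ℝ) :
    MeasurableSet {p : ((Fin k → E) × E) × E | p.2 ∈ TT p.1.1 p.1.2 δ} := by
  have : {p : ((Fin k → E) × E) × E | p.2 ∈ TT p.1.1 p.1.2 δ}
      = ⋂ i, {p : ((Fin k → E) × E) × E | |⟪p.1.1 i, p.2 - p.1.2⟫| ≤ δ} := by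
    ext p; simp [TT]
  rw [this]
  exact MeasurableSet.iInter fun i => measurableSet_le (by fun_prop) measurable_const

lemma measurable_TT (ν : Measure E) [SFinite ν] (δ : ℝ) :
    Measurable fun q : (Fin k → E) × E => ν (TT q.1 q.2 δ) :=
  measurable_measure_prodMk_left (measurableSet_TT3 δ)

lemma measurableSet_TT (X : Fin k → E) (a : E) (δ : ℝ) : MeasurableSet (TT X a δ) :=
  measurable_prodMk_left (x := (X, a)) (measurableSet_TT3 δ)

open Classical in
lemma moment {ν : Measure E} [SFinite ν] {η : ℝ≥0∞} {β m : ℕ} (h : Fr ν η (k + β))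
    (hβ : 3 * m + 1 ≤ β) {z a : E} {ρ δ : ℝ} (hρ : 0 < ρ) (hδ : 0 < δ) (ha : a ∈ closedBall z ρ)
    (n : ℕ) (A : Finset E) (hA : A.card + n ≤ m) :
    ∫⁻ X, (univ.pi fun _ : Fin k => slab A δ).indicator
        (fun X => ν.restrict (closedBall z ρ) (TT X a δ) ^ n) X ∂Gam E k
      ≤ (ENNReal.ofReal δ ^ k * (2 * 4 ^ (k + β) * η * ENNReal.ofReal ρ ^ β)) ^ n
        * stdGaussian E (slab A δ) ^ k := by
  have hS : ∀ A : Finset E, MeasurableSet (univ.pi fun _ : Fin k => slab A δ) := fun A =>
    MeasurableSet.univ_pi fun _ => measurableSet_slab A δ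
  induction n generalizing A with
  | zero =>
    simp only [pow_zero, one_mul]
    rw [lintegral_indicator_const (hS A), Measure.pi_pi]
    simp
  | succ n ih =>
    set νB := ν.restrict (closedBall z ρ) with hνB
    have hm : Measurable fun X : Fin k → E => νB (TT X a δ) ^ n :=
      ((measurable_TT νB δ).comp measurable_prodMk_right).pow_const n
    have e1 : ∀ X : Fin k → E, (univ.pi fun _ : Fin k => slab A δ).indicator
        (fun X => νB (TT X a δ) ^ (n + 1)) X
        = ∫⁻ s, (univ.pi fun _ : Fin k => slab (insert (s - a) A) δ).indicator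
          (fun X => νB (TT X a δ) ^ n) X ∂νB := by
      intro X
      by_cases hX : X ∈ univ.pi fun _ : Fin k => slab A δ
      · rw [indicator_of_mem hX, pow_succ, ← lintegral_indicator_const (measurableSet_TT X a δ)]
        refine lintegral_congr fun s => ?_
        by_cases hs : s ∈ TT X a δ
        · rw [indicator_of_mem hs, indicator_of_mem]
          intro i _ b hb
          rcases Finset.mem_insert.1 hb with rfl | hb
          · exact hs i
          · exact hX i (mem_univ _) b hb
        · rw [indicator_of_notMem hs, indicator_of_notMem]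
          exact fun hh => hs fun i => hh i (mem_univ _) _ (Finset.mem_insert_self _ _)
      · rw [indicator_of_notMem hX]
        refine (lintegral_eq_zero_of_ae_eq_zero (Eventually.of_forall fun s => ?_)).symm
        refine indicator_of_notMem (fun hh => hX fun i _ b hb => ?_) _
        exact hh i (mem_univ _) b (Finset.mem_insert_of_mem hb)
    simp_rw [e1]
    have hj : Measurable fun p : (Fin k → E) × E =>
        (univ.pi fun _ : Fin k => slab (insert (p.2 - a) A) δ).indicator
          (fun X => νB (TT X a δ) ^ n) p.1 := by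
      have hset : MeasurableSet {p : (Fin k → E) × E |
          p.1 ∈ (univ.pi fun _ : Fin k => slab A δ) ∧ p.2 ∈ TT p.1 a δ} :=
        (measurable_fst (hS A)).inter
          ((show Measurable fun p : (Fin k → E) × E => ((p.1, a), p.2) by fun_prop)
            (measurableSet_TT3 δ))
      have := (hm.comp measurable_fst).indicator hset
      convert this using 1
      ext p
      simp only [indicator, Set.mem_pi, mem_univ, true_imp_iff, slab, TT, mem_ofPred_eq,
        Finset.forall_mem_insert, Function.comp]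
      congr 1
      simp only [forall_and, and_comm]
    rw [lintegral_lintegral_swap hj.aemeasurable]
    calc _ ≤ ∫⁻ s, (ENNReal.ofReal δ ^ k * (2 * 4 ^ (k + β) * η * ENNReal.ofReal ρ ^ β)) ^ n
          * stdGaussian E (slab (insert (s - a) A) δ) ^ k ∂νB :=
          lintegral_mono fun s => ih _ (by have := Finset.card_insert_le (s - a) A; omega)
      _ ≤ (ENNReal.ofReal δ ^ k * (2 * 4 ^ (k + β) * η * ENNReal.ofReal ρ ^ β)) ^ n
          * ∫⁻ s, stdGaussian E (slab (insert (s - a) A) δ) ^ k ∂νB := by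
          rw [lintegral_const_mul]
          have hset : MeasurableSet {p : E × E | p.2 ∈ slab A δ ∧ |⟪p.2, p.1 - a⟫| ≤ δ} :=
            (measurable_snd (measurableSet_slab A δ)).inter
              (measurableSet_le (f := fun p : E × E => |⟪p.2, p.1 - a⟫|) (by fun_prop)
                measurable_const)
          have := (measurable_measure_prodMk_left (ν := stdGaussian E) hset).pow_const k
          convert this using 4
          ext x
          simp [slab, and_comm]
      _ ≤ _ := by
          rw [pow_succ, mul_assoc (_ ^ n)]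
          gcongr
          exact energy h hβ A (by omega) hρ hδ ha

lemma le_thresh {F lam : ℝ≥0∞} (h0 : lam ≠ 0) (ht : lam ≠ ⊤) (n : ℕ) :
    F ≤ lam + lam⁻¹ ^ n * F ^ (n + 1) := by
  rcases le_total F lam with h | h
  · exact h.trans le_self_add
  · refine le_trans ?_ le_add_self
    calc F = lam⁻¹ ^ n * lam ^ n * F := by
          rw [← mul_pow, ENNReal.inv_mul_cancel h0 ht, one_pow, one_mul]
      _ ≤ lam⁻¹ ^ n * F ^ n * F := by gcongr
      _ = _ := by rw [pow_succ, mul_assoc]

/-- The smoothed moment. -/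
noncomputable def AA (ν : Measure E) (n : ℕ) (X : Fin k → E) (δ : ℝ) : ℝ≥0∞ :=
  (ENNReal.ofReal (2 * δ) ^ k)⁻¹ ^ n * ∫⁻ a, ν (TT X a (2 * δ)) ^ n ∂ν

lemma measurable_AA (ν : Measure E) [SFinite ν] (n : ℕ) (δ : ℝ) :
    Measurable fun X : Fin k → E => AA ν n X δ :=
  (((measurable_TT ν (2 * δ)).pow_const n).lintegral_prod_right').const_mul _

lemma smooth (ν : Measure E) [SFinite ν] (n : ℕ) (X : Fin k → E) {δ : ℝ} (hδ : 0 < δ)
    (Y : Set (Fin k → ℝ)) {lam : ℝ≥0∞} (h0 : lam ≠ 0) (ht : lam ≠ ⊤) :
    ν {s | closedBall (obs X s) δ ⊆ Y} ≤ lam * volume Y + lam⁻¹ ^ n * AA ν n X δ := by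
  set c : ℝ≥0∞ := ENNReal.ofReal (2 * δ) ^ k with hc
  have hc0 : c ≠ 0 := pow_ne_zero _ (by simpa using hδ)
  have hct : c ≠ ⊤ := ENNReal.pow_ne_top ENNReal.ofReal_ne_top
  have hvol : ∀ y : Fin k → ℝ, volume (closedBall y δ) = c := by
    intro y
    rw [Real.volume_pi_closedBall _ hδ.le, ENNReal.ofReal_pow (by positivity), Fintype.card_fin]
  have hob : Measurable (obs X) := measurable_obs.comp measurable_prodMk_left
  let R : Set ((Fin k → ℝ) × E) := {p | dist p.1 (obs X p.2) ≤ δ}
  have hR : MeasurableSet R :=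
    measurableSet_le (measurable_fst.dist (hob.comp measurable_snd)) measurable_const
  let G : (Fin k → ℝ) → ℝ≥0∞ := fun y => ν (Prod.mk y ⁻¹' R)
  have hG : Measurable G := measurable_measure_prodMk_left hR
  have hGi : ∀ y, G y = ∫⁻ s, R.indicator 1 (y, s) ∂ν := by
    intro y
    exact (lintegral_indicator_one (measurable_prodMk_left hR)).symm
  have step1 : c * ν {s | closedBall (obs X s) δ ⊆ Y} ≤ ∫⁻ y in Y, G y := by
    simp_rw [hGi]
    rw [lintegral_lintegral_swap (f := fun y s => R.indicator 1 (y, s))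
      (measurable_one.indicator hR).aemeasurable]
    refine le_trans ?_ (mul_meas_ge_le_lintegral
      ((measurable_one.indicator hR).lintegral_prod_left') c)
    refine mul_le_mul_right (measure_mono fun s hs => ?_) _
    have e : ∫⁻ y in Y, R.indicator 1 (y, s) = volume.restrict Y (closedBall (obs X s) δ) := by
      rw [← lintegral_indicator_one measurableSet_closedBall]
      rfl
    change c ≤ ∫⁻ y in Y, R.indicator 1 (y, s)
    rw [e, Measure.restrict_apply measurableSet_closedBall, inter_eq_left.2 hs, hvol]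
  have step3 : ∫⁻ y, G y ^ (n + 1) ≤ c * ∫⁻ a, ν (TT X a (2 * δ)) ^ n ∂ν := by
    have hm : Measurable fun a : E => ν (TT X a (2 * δ)) ^ n :=
      ((measurable_TT ν (2 * δ)).comp measurable_prodMk_left).pow_const n
    have hj : Measurable fun p : (Fin k → ℝ) × E =>
        R.indicator (fun p => ν (TT X p.2 (2 * δ)) ^ n) p :=
      (hm.comp measurable_snd).indicator hR
    calc _ ≤ ∫⁻ y, ∫⁻ a, R.indicator (fun p => ν (TT X p.2 (2 * δ)) ^ n) (y, a) ∂ν := by
          refine lintegral_mono fun y => ?_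
          rw [pow_succ, ← lintegral_indicator_const (measurable_prodMk_left hR)]
          refine lintegral_mono fun a => ?_
          by_cases ha : (y, a) ∈ R
          · rw [indicator_of_mem ha, indicator_of_mem (show a ∈ Prod.mk y ⁻¹' R from ha)]
            refine pow_le_pow_left' (measure_mono fun s hs i => ?_) n
            have h1 := (dist_le_pi_dist y (obs X a) i).trans ha
            have h2 := (dist_le_pi_dist y (obs X s) i).trans hs
            rw [Real.dist_eq, abs_le] at h1 h2
            unfold obs at h1 h2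
            rw [inner_sub_right, abs_le]
            constructor <;> linarith
          · rw [indicator_of_notMem (show a ∉ Prod.mk y ⁻¹' R from ha)]
            exact zero_le
      _ = ∫⁻ a, c * ν (TT X a (2 * δ)) ^ n ∂ν := by
          rw [lintegral_lintegral_swap hj.aemeasurable]
          refine lintegral_congr fun a => ?_
          rw [mul_comm c, ← hvol (obs X a), ← lintegral_indicator_const measurableSet_closedBall]
          rfl
      _ = _ := lintegral_const_mul _ hm
  calc _ = c⁻¹ * (c * ν {s | closedBall (obs X s) δ ⊆ Y}) := by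
        rw [← mul_assoc, ENNReal.inv_mul_cancel hc0 hct, one_mul]
    _ ≤ ∫⁻ y in Y, c⁻¹ * G y := by
        rw [lintegral_const_mul _ hG]; gcongr
    _ ≤ ∫⁻ y in Y, (lam + lam⁻¹ ^ n * (c⁻¹ * G y) ^ (n + 1)) :=
        lintegral_mono fun y => le_thresh h0 ht n
    _ = lam * volume Y + lam⁻¹ ^ n * (c⁻¹ ^ (n + 1) * ∫⁻ y in Y, G y ^ (n + 1)) := by
        rw [lintegral_add_left measurable_const, setLIntegral_const]
        simp_rw [mul_pow]
        rw [lintegral_const_mul _ ((hG.pow_const _).const_mul _),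
          lintegral_const_mul _ (hG.pow_const _)]
    _ ≤ lam * volume Y + lam⁻¹ ^ n * (c⁻¹ ^ (n + 1) * (c * ∫⁻ a, ν (TT X a (2 * δ)) ^ n ∂ν)) := by
        gcongr
        exact (lintegral_mono' Measure.restrict_le_self le_rfl).trans step3
    _ = _ := by
        unfold AA
        rw [← hc, pow_succ, mul_assoc, ← mul_assoc c⁻¹, ENNReal.inv_mul_cancel hc0 hct, one_mul]

/-- The limiting error term. -/
noncomputable def Ainf (ν : Measure E) (n : ℕ) (lam : ℝ≥0∞) (X : Fin k → E) : ℝ≥0∞ :=
  liminf (fun j : ℕ => lam⁻¹ ^ n * AA ν n X ((1 / 2) ^ j)) atTop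

lemma measurable_Ainf (ν : Measure E) [SFinite ν] (n : ℕ) (lam : ℝ≥0∞) :
    Measurable fun X : Fin k → E => Ainf ν n lam X :=
  Measurable.liminf fun _ => (measurable_AA ν n _).const_mul _

lemma push_open (ν : Measure E) [SFinite ν] (n : ℕ) (X : Fin k → E)
    {Y : Set (Fin k → ℝ)} (hY : IsOpen Y) {lam : ℝ≥0∞} (h0 : lam ≠ 0) (ht : lam ≠ ⊤) :
    ν (obs X ⁻¹' Y) ≤ lam * volume Y + Ainf ν n lam X := by
  let S : ℕ → Set E := fun j => {s | closedBall (obs X s) ((1 / 2) ^ j) ⊆ Y}
  have hmono : Monotone S := fun i j hij s hs =>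
    (closedBall_subset_closedBall
      (pow_le_pow_of_le_one (by norm_num) (by norm_num) hij)).trans hs
  have hsub : obs X ⁻¹' Y ⊆ ⋃ j, S j := by
    intro s hs
    obtain ⟨r, hr, hrY⟩ := Metric.isOpen_iff.1 hY _ hs
    obtain ⟨j, hj⟩ := exists_pow_lt_of_lt_one hr (show (1 / 2 : ℝ) < 1 by norm_num)
    exact mem_iUnion.2 ⟨j, (closedBall_subset_ball hj).trans hrY⟩
  refine (measure_mono hsub).trans ?_
  rw [hmono.measure_iUnion]
  refine iSup_le fun j => ?_
  rw [← tsub_le_iff_left]
  refine le_liminf_of_le (h := ?_)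
  filter_upwards [eventually_ge_atTop j] with i hi
  rw [tsub_le_iff_left]
  exact (measure_mono (hmono hi)).trans
    (smooth ν n X (by positivity) Y h0 ht)

lemma push_set (ν : Measure E) [SFinite ν] (n : ℕ) (X : Fin k → E)
    (Y : Set (Fin k → ℝ)) {lam : ℝ≥0∞} (h0 : lam ≠ 0) (ht : lam ≠ ⊤) :
    ν (obs X ⁻¹' Y) ≤ lam * volume Y + Ainf ν n lam X := by
  refine ENNReal.le_of_forall_pos_le_add fun ε hε _ => ?_
  obtain ⟨U, hU1, hU2, hU3⟩ := Y.exists_isOpen_le_add volume (ε := lam⁻¹ * ε)
    (mul_ne_zero (ENNReal.inv_ne_zero.2 ht) (by simpa using hε.ne'))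
  calc _ ≤ ν (obs X ⁻¹' U) := measure_mono (preimage_mono hU1)
    _ ≤ lam * volume U + Ainf ν n lam X := push_open ν n X hU2 h0 ht
    _ ≤ lam * (volume Y + lam⁻¹ * ε) + Ainf ν n lam X := by gcongr
    _ = _ := by
        rw [mul_add, ← mul_assoc, ENNReal.mul_inv_cancel h0 ht, one_mul]; ring

lemma push_fun (ν : Measure E) [SFinite ν] (n : ℕ) (X : Fin k → E)
    {κ : (Fin k → ℝ) → ℝ≥0∞} (hκ : Measurable κ) (hκ1 : ∀ y, κ y ≤ 1)
    {lam : ℝ≥0∞} (h0 : lam ≠ 0) (ht : lam ≠ ⊤) :
    ∫⁻ s, κ (obs X s) ∂ν ≤ lam * (∫⁻ y, κ y) + Ainf ν n lam X := by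
  have hob : Measurable (obs X) := measurable_obs.comp measurable_prodMk_left
  have hne : ∀ y, κ y ≠ ⊤ := fun y => ne_top_of_le_ne_top ENNReal.one_ne_top (hκ1 y)
  have e1 := lintegral_eq_lintegral_meas_lt ν (f := fun s => (κ (obs X s)).toReal)
    (Eventually.of_forall fun _ => ENNReal.toReal_nonneg)
    (hκ.comp hob).ennreal_toReal.aemeasurable
  have e2 := lintegral_eq_lintegral_meas_lt volume (f := fun y => (κ y).toReal)
    (Eventually.of_forall fun _ => ENNReal.toReal_nonneg) hκ.ennreal_toReal.aemeasurable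
  simp only [ENNReal.ofReal_toReal (hne _)] at e1 e2
  rw [e1, e2]
  calc _ ≤ ∫⁻ t in Ioi (0 : ℝ), (lam * volume {y | t < (κ y).toReal}
        + (Ioo (0 : ℝ) 1).indicator (fun _ => Ainf ν n lam X) t) := by
        refine setLIntegral_mono' measurableSet_Ioi fun t ht0 => ?_
        by_cases ht1 : t < 1
        · rw [indicator_of_mem (show t ∈ Ioo (0 : ℝ) 1 from ⟨ht0, ht1⟩)]
          exact push_set ν n X {y | t < (κ y).toReal} h0 ht
        · have : {s | t < (κ (obs X s)).toReal} = ∅ := by
            ext s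
            have := ENNReal.toReal_mono ENNReal.one_ne_top (hκ1 (obs X s))
            simp only [ENNReal.toReal_one] at this
            simp only [mem_ofPred_eq, mem_empty_iff_false, iff_false, not_lt]
            linarith [not_lt.1 ht1]
          rw [this, measure_empty]
          exact zero_le
    _ ≤ _ := by
        rw [lintegral_add_right _ (measurable_const.indicator measurableSet_Ioo),
          lintegral_const_mul' _ _ ht]
        gcongr
        refine (lintegral_mono' Measure.restrict_le_self le_rfl).trans ?_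
        rw [lintegral_indicator_const measurableSet_Ioo]
        simp

lemma integral_Ainf {ν : Measure E} [SFinite ν] {η : ℝ≥0∞} {β n : ℕ} (h : Fr ν η (k + β))
    (hβ : 3 * n + 1 ≤ β) (z : E) {ρ : ℝ} (hρ : 0 < ρ) (lam : ℝ≥0∞) :
    ∫⁻ X, Ainf (ν.restrict (closedBall z ρ)) n lam X ∂Gam E k
      ≤ lam⁻¹ ^ n * ((2 * 4 ^ (k + β) * η * ENNReal.ofReal ρ ^ β) ^ n
        * (η * ENNReal.ofReal ρ ^ (k + β))) := by
  classical
  set νB := ν.restrict (closedBall z ρ) with hνB
  refine (lintegral_liminf_le fun _ => (measurable_AA νB n _).const_mul _).trans ?_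
  refine liminf_le_of_frequently_le' (Frequently.of_forall fun j => ?_)
  set δ : ℝ := (1 / 2) ^ j with hδ
  have hδ0 : 0 < δ := by positivity
  rw [lintegral_const_mul _ (measurable_AA νB n _)]
  gcongr
  unfold AA
  have hm := (measurable_TT (k := k) νB (2 * δ)).pow_const n
  rw [lintegral_const_mul _ hm.lintegral_prod_right', lintegral_lintegral_swap hm.aemeasurable]
  set c : ℝ≥0∞ := ENNReal.ofReal (2 * δ) ^ k with hc
  have hc0 : c ≠ 0 := pow_ne_zero _ (by simpa using hδ0)
  have hct : c ≠ ⊤ := ENNReal.pow_ne_top ENNReal.ofReal_ne_top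
  calc _ ≤ c⁻¹ ^ n * ∫⁻ _a in closedBall z ρ,
        (c * (2 * 4 ^ (k + β) * η * ENNReal.ofReal ρ ^ β)) ^ n ∂ν := by
        gcongr 1
        refine setLIntegral_mono' measurableSet_closedBall fun a ha => ?_
        have := moment h hβ hρ (show 0 < 2 * δ by positivity) ha n ∅ (by simp)
        have e0 : slab (∅ : Finset E) (2 * δ) = univ := by ext; simp [slab]
        rw [e0, pi_univ, indicator_univ, measure_univ, one_pow, mul_one] at this
        exact this
    _ ≤ _ := by
        rw [setLIntegral_const, mul_pow, ← mul_assoc, ← mul_assoc, ← mul_pow,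
          ENNReal.inv_mul_cancel hc0 hct, one_pow, one_mul]
        gcongr
        exact h z ρ hρ

end Vale.Agent.P309
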