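import Vale.Agent.P309.Gauss

/-! Nets, Frostman bounds, tubes and the energy estimate. -/

open MeasureTheory ProbabilityTheory Set Metric Module
open scoped ENNReal NNReal RealInnerProductSpace

namespace Vale.Agent.P309

section nets

variable {V : Type*} [NormedAddCommGroup V] [NormedSpace ℝ V] [FiniteDimensional ℝ V]

lemma net_one : ∃ N : Finset V, N.card ≤ 5 ^ finrank ℝ V ∧ (∀ n ∈ N, ‖n‖ ≤ 2) ∧
    ∀ x : V, ‖x‖ ≤ 2 → ∃ n ∈ N, ‖x - n‖ ≤ 1 := by
  classical
  let P : ℕ → Prop := fun k => ∃ s : Finset V, s.card = k ∧ (∀ c ∈ s, ‖c‖ ≤ 2) ∧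
    ∀ c ∈ s, ∀ d ∈ s, c ≠ d → 1 ≤ ‖c - d‖
  have h0 : P 0 := ⟨∅, by simp⟩
  obtain ⟨s, hs1, hs2, hs3⟩ : P (Nat.findGreatest P (5 ^ finrank ℝ V)) :=
    Nat.findGreatest_spec (Nat.zero_le _) h0
  refine ⟨s, Besicovitch.card_le_of_separated s hs2 hs3, hs2, fun x hx => ?_⟩
  by_contra hcon
  push Not at hcon
  have hxs : x ∉ s := fun h => by have := hcon x h; simp at this; linarith
  have a2 : ∀ c ∈ insert x s, ‖c‖ ≤ 2 := by
    intro c hc
    rcases Finset.mem_insert.1 hc with rfl | hc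
    · exact hx
    · exact hs2 c hc
  have a3 : ∀ c ∈ insert x s, ∀ d ∈ insert x s, c ≠ d → 1 ≤ ‖c - d‖ := by
    intro c hc d hd hcd
    rcases Finset.mem_insert.1 hc with rfl | hc' <;> rcases Finset.mem_insert.1 hd with rfl | hd'
    · exact absurd rfl hcd
    · exact (hcon d hd').le
    · rw [norm_sub_rev]; exact (hcon c hc').le
    · exact hs3 c hc' d hd' hcd
  have a4 := Besicovitch.card_le_of_separated _ a2 a3
  have a5 : (insert x s).card ≤ Nat.findGreatest P (5 ^ finrank ℝ V) :=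
    Nat.le_findGreatest a4 ⟨_, rfl, a2, a3⟩
  rw [Finset.card_insert_of_notMem hxs] at a5
  omega

lemma net_scaled (z : V) {R : ℝ} (hR : 0 < R) : ∃ N : Finset V, N.card ≤ 5 ^ finrank ℝ V ∧
    (∀ n ∈ N, ‖n - z‖ ≤ 2 * R) ∧ ∀ x : V, ‖x - z‖ ≤ 2 * R → ∃ n ∈ N, ‖x - n‖ ≤ R := by
  classical
  obtain ⟨N, h1, h2, h3⟩ := net_one (V := V)
  refine ⟨N.image fun n => z + R • n, Finset.card_image_le.trans h1, ?_, fun x hx => ?_⟩
  · intro n hn
    obtain ⟨n', hn', rfl⟩ := Finset.mem_image.1 hn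
    rw [add_sub_cancel_left, norm_smul, Real.norm_of_nonneg hR.le]
    nlinarith [h2 n' hn']
  · obtain ⟨n, hn, hxn⟩ := h3 (R⁻¹ • (x - z)) (by
      rw [norm_smul, norm_inv, Real.norm_of_nonneg hR.le, inv_mul_le_iff₀ hR]; linarith)
    refine ⟨z + R • n, Finset.mem_image_of_mem _ hn, ?_⟩
    have : x - (z + R • n) = R • (R⁻¹ • (x - z) - n) := by
      rw [smul_sub, smul_inv_smul₀ hR.ne']; abel
    rw [this, norm_smul, Real.norm_of_nonneg hR.le]
    nlinarith

lemma net_iter (j : ℕ) (z : V) {R : ℝ} (hR : 0 < R) : ∃ N : Finset V,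
    N.card ≤ 5 ^ (finrank ℝ V * j) ∧ ∀ x : V, ‖x - z‖ ≤ 2 ^ j * R → ∃ n ∈ N, ‖x - n‖ ≤ R := by
  classical
  induction j generalizing z with
  | zero => exact ⟨{z}, by simp, fun x hx => ⟨z, by simp, by simpa using hx⟩⟩
  | succ j ih =>
    obtain ⟨N, h1, -, h3⟩ := net_scaled z (R := 2 ^ j * R) (by positivity)
    choose F hF1 hF2 using ih
    refine ⟨N.biUnion F, ?_, fun x hx => ?_⟩
    · refine Finset.card_biUnion_le.trans ((Finset.sum_le_card_nsmul _ _ _
        fun n _ => hF1 n).trans ?_)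
      rw [smul_eq_mul, mul_add, mul_one, pow_add, mul_comm]
      exact Nat.mul_le_mul_left _ h1
    · obtain ⟨n, hn, hxn⟩ := h3 x (by rw [pow_succ] at hx; linarith)
      obtain ⟨n', hn', hxn'⟩ := hF2 n x hxn
      exact ⟨n', Finset.mem_biUnion.2 ⟨n, hn, hn'⟩, hxn'⟩

end nets

variable {E : Type*} [NormedAddCommGroup E] [InnerProductSpace ℝ E] [FiniteDimensional ℝ E]
  [MeasurableSpace E] [BorelSpace E]

/-- Frostman-type bound. -/
def Fr (ν : Measure E) (η : ℝ≥0∞) (α : ℕ) : Prop :=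
  ∀ z ρ, 0 < ρ → ν (closedBall z ρ) ≤ η * ENNReal.ofReal ρ ^ α

/-- Tube around the affine subspace `a + W`. -/
def tube (W : Submodule ℝ E) (a : E) (ρ τ : ℝ) : Set E :=
  {s | ‖s - a‖ ≤ ρ ∧ ‖(s - a) - W.starProjection (s - a)‖ ≤ τ}

lemma measurableSet_tube (W : Submodule ℝ E) (a : E) (ρ τ : ℝ) :
    MeasurableSet (tube W a ρ τ) :=
  ((isClosed_le (f := fun s => ‖s - a‖) (by fun_prop) continuous_const).inter
    (isClosed_le (f := fun s => ‖(s - a) - W.starProjection (s - a)‖) (by fun_prop)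
      continuous_const)).measurableSet

omit [BorelSpace E] in
lemma tube_le {ν : Measure E} {η : ℝ≥0∞} {α : ℕ} (h : Fr ν η α) (W : Submodule ℝ E) {m : ℕ}
    (hW : finrank ℝ W ≤ m) (a : E) {R : ℝ} (hR : 0 < R) (j : ℕ) :
    ν (tube W a (2 ^ j * R) R) ≤ 5 ^ (m * j) * (η * ENNReal.ofReal (2 * R) ^ α) := by
  obtain ⟨N, h1, h2⟩ := net_iter (V := W) j 0 hR
  have hsub : tube W a (2 ^ j * R) R ⊆ ⋃ n ∈ N, closedBall (a + (n : E)) (2 * R) := by
    rintro s ⟨hs1, hs2⟩
    obtain ⟨n, hn, hwn⟩ := h2 (W.orthogonalProjectionOnto (s - a)) (by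
      rw [sub_zero]
      exact (W.norm_orthogonalProjectionOnto_apply_le _).trans hs1)
    refine mem_biUnion hn ?_
    rw [mem_closedBall, dist_eq_norm]
    have e : s - (a + n) = ((s - a) - W.starProjection (s - a))
        + ((W.orthogonalProjectionOnto (s - a) - n : W) : E) := by
      simp only [Submodule.starProjection_apply, Submodule.coe_sub]; abel
    rw [e]
    refine (norm_add_le _ _).trans ?_
    have : ‖((W.orthogonalProjectionOnto (s - a) - n : W) : E)‖ ≤ R := hwn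
    linarith
  refine (measure_mono hsub).trans ((measure_biUnion_finset_le _ _).trans ?_)
  refine (Finset.sum_le_card_nsmul _ _ _ fun n _ => h _ _ (by positivity)).trans ?_
  rw [nsmul_eq_mul]
  gcongr
  have : N.card ≤ 5 ^ (m * j) :=
    h1.trans (Nat.pow_le_pow_right (by norm_num) (Nat.mul_le_mul_right _ hW))
  exact_mod_cast this

lemma energy_real {δ ρ : ℝ} (hδ : 0 < δ) (hρ : 0 < ρ) (k β m j : ℕ) (hβ : 3 * m + 1 ≤ β) :
    (δ * 2 ^ j / ρ) ^ k * 5 ^ (m * j) * (2 * (2 * ρ / 2 ^ j)) ^ (k + β)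
      ≤ δ ^ k * (4 ^ (k + β) * ρ ^ β) * (1 / 2) ^ j := by
  have h1 : (5 : ℝ) ^ (m * j) * 2 ^ j ≤ (2 ^ j) ^ β := by
    calc (5 : ℝ) ^ (m * j) * 2 ^ j ≤ (2 ^ 3) ^ (m * j) * 2 ^ j := by gcongr; norm_num
      _ = 2 ^ (j * (3 * m + 1)) := by rw [← pow_mul, ← pow_add]; congr 1; ring
      _ ≤ 2 ^ (j * β) := pow_le_pow_right₀ (by norm_num) (Nat.mul_le_mul_left _ hβ)
      _ = _ := pow_mul _ _ _
  have e1 : (δ * 2 ^ j / ρ) ^ k * 5 ^ (m * j) * (2 * (2 * ρ / 2 ^ j)) ^ (k + β)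
      = δ ^ k * (4 ^ (k + β) * ρ ^ β) * (5 ^ (m * j) / (2 ^ j) ^ β) := by
    have : (2 * (2 * ρ / 2 ^ j)) = 4 * ρ / 2 ^ j := by ring
    rw [this]
    simp only [div_pow, mul_pow, pow_add]
    field_simp
  rw [e1]
  gcongr
  rw [one_div, inv_pow, div_le_iff₀ (by positivity), le_inv_mul_iff₀ (by positivity), mul_comm]
  exact h1

open Classical in
lemma energy {ν : Measure E} {η : ℝ≥0∞} {k β m : ℕ} (h : Fr ν η (k + β)) (hβ : 3 * m + 1 ≤ β)
    (A : Finset E) (hA : A.card ≤ m) {z a : E} {ρ δ : ℝ} (hρ : 0 < ρ) (hδ : 0 < δ)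
    (ha : a ∈ closedBall z ρ) :
    ∫⁻ s in closedBall z ρ, stdGaussian E (slab (insert (s - a) A) δ) ^ k ∂ν
      ≤ ENNReal.ofReal δ ^ k * (2 * 4 ^ (k + β) * η * ENNReal.ofReal ρ ^ β)
        * stdGaussian E (slab A δ) ^ k := by
  set W := Submodule.span ℝ (A : Set E) with hWdef
  have hW : finrank ℝ W ≤ m := (finrank_span_finset_le_card A).trans hA
  have hAW : ∀ a ∈ A, a ∈ W := fun a ha => Submodule.subset_span ha
  set p := stdGaussian E (slab A δ) with hp
  let T : ℕ → Set E := fun j => tube W a (2 ^ j * (2 * ρ / 2 ^ j)) (2 * ρ / 2 ^ j)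
  have hpt : ∀ s ∈ closedBall z ρ, stdGaussian E (slab (insert (s - a) A) δ) ^ k
      ≤ ∑' j, (T j).indicator (fun _ => ENNReal.ofReal (δ * 2 ^ j / ρ) ^ k * p ^ k) s := by
    intro s hs
    have hsa : ‖s - a‖ ≤ 2 * ρ := by
      rw [mem_closedBall, dist_eq_norm] at hs ha
      have : s - a = (s - z) - (a - z) := by abel
      rw [this]
      linarith [norm_sub_le (s - z) (a - z)]
    have hsl : slab (insert (s - a) A) δ = slab A δ ∩ {x | |⟪x, s - a⟫| ≤ δ} := by
      ext x; simp [slab, and_comm]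
    set D := ‖(s - a) - W.starProjection (s - a)‖ with hD
    have hD2 : D ≤ 2 * ρ := by
      have := Wᗮ.norm_starProjection_apply_le (s - a)
      rw [Submodule.starProjection_orthogonal_val] at this
      exact this.trans hsa
    obtain ⟨j, hj1, hj2⟩ : ∃ j : ℕ, D ≤ 2 * ρ / 2 ^ j ∧
        stdGaussian E (slab (insert (s - a) A) δ) ≤ ENNReal.ofReal (δ * 2 ^ j / ρ) * p := by
      have hD0 : 0 ≤ D := norm_nonneg _
      rcases hD0.eq_or_lt with h0 | h0
      · obtain ⟨j, hj⟩ := pow_unbounded_of_one_lt (ρ / δ) (show (1 : ℝ) < 2 by norm_num)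
        refine ⟨j, by rw [← h0]; positivity, ?_⟩
        have h1 : 1 ≤ ENNReal.ofReal (δ * 2 ^ j / ρ) := by
          rw [ENNReal.one_le_ofReal, le_div_iff₀ hρ]
          rw [div_lt_iff₀ hδ] at hj
          linarith
        calc _ ≤ p := by rw [hsl]; exact measure_mono inter_subset_left
          _ = 1 * p := (one_mul _).symm
          _ ≤ _ := by gcongr
      · obtain ⟨j, hj1, hj2⟩ := exists_nat_pow_near (x := 2 * ρ / D) (y := 2)
          (by rw [le_div_iff₀ h0]; linarith) (by norm_num)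
        refine ⟨j, ?_, ?_⟩
        · rw [le_div_iff₀ h0] at hj1
          rw [le_div_iff₀ (by positivity)]; linarith
        · rw [hsl]
          have := small_ball A W hAW (s - a) hδ.le (D := ρ / 2 ^ j) (by positivity) (by
            rw [div_lt_iff₀ h0, pow_succ] at hj2
            rw [div_le_iff₀ (by positivity)]
            linarith)
          rwa [div_div_eq_mul_div] at this
    refine le_trans ?_ (ENNReal.le_tsum j)
    have hmem : s ∈ T j := ⟨by rw [mul_div_cancel₀ _ (by positivity)]; exact hsa, hj1⟩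
    rw [indicator_of_mem hmem, ← mul_pow]
    gcongr
  calc _ ≤ ∫⁻ s in closedBall z ρ,
        ∑' j, (T j).indicator (fun _ => ENNReal.ofReal (δ * 2 ^ j / ρ) ^ k * p ^ k) s ∂ν :=
        setLIntegral_mono' measurableSet_closedBall hpt
    _ ≤ ∫⁻ s, ∑' j, (T j).indicator (fun _ => ENNReal.ofReal (δ * 2 ^ j / ρ) ^ k * p ^ k) s ∂ν :=
        lintegral_mono' Measure.restrict_le_self le_rfl
    _ = ∑' j, ENNReal.ofReal (δ * 2 ^ j / ρ) ^ k * p ^ k * ν (T j) := by
        rw [lintegral_tsum fun j =>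
          (measurable_const.indicator (measurableSet_tube _ _ _ _)).aemeasurable]
        exact tsum_congr fun j => lintegral_indicator_const (measurableSet_tube _ _ _ _) _
    _ ≤ ∑' j, (ENNReal.ofReal δ ^ k * (4 ^ (k + β) * η * ENNReal.ofReal ρ ^ β) * p ^ k)
          * 2⁻¹ ^ j := by
        refine ENNReal.tsum_le_tsum fun j => ?_
        have h1 := tube_le h W hW a (R := 2 * ρ / 2 ^ j) (by positivity) j
        have h2 := ENNReal.ofReal_le_ofReal (energy_real hδ hρ k β m j hβ)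
        rw [ENNReal.ofReal_mul (by positivity), ENNReal.ofReal_mul (by positivity),
          ENNReal.ofReal_mul (by positivity), ENNReal.ofReal_mul (by positivity),
          ENNReal.ofReal_mul (by positivity), ENNReal.ofReal_pow (by positivity),
          ENNReal.ofReal_pow (by positivity), ENNReal.ofReal_pow (by positivity),
          ENNReal.ofReal_pow (by positivity), ENNReal.ofReal_pow (by positivity),
          ENNReal.ofReal_pow (by positivity), ENNReal.ofReal_pow (by positivity)] at h2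
        have e2 : ENNReal.ofReal (1 / 2) = 2⁻¹ := by
          rw [one_div, ENNReal.ofReal_inv_of_pos (by norm_num)]; simp
        rw [e2, ENNReal.ofReal_ofNat, ENNReal.ofReal_ofNat] at h2
        calc _ ≤ ENNReal.ofReal (δ * 2 ^ j / ρ) ^ k * p ^ k * (5 ^ (m * j)
              * (η * ENNReal.ofReal (2 * (2 * ρ / 2 ^ j)) ^ (k + β))) := by gcongr
          _ = (ENNReal.ofReal (δ * 2 ^ j / ρ) ^ k * 5 ^ (m * j)
              * ENNReal.ofReal (2 * (2 * ρ / 2 ^ j)) ^ (k + β)) * (η * p ^ k) := by ring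
          _ ≤ (ENNReal.ofReal δ ^ k * (4 ^ (k + β) * ENNReal.ofReal ρ ^ β) * 2⁻¹ ^ j)
              * (η * p ^ k) := by gcongr
          _ = _ := by ring
    _ = _ := by
        rw [ENNReal.tsum_mul_left, ENNReal.tsum_geometric_two]
        ring

end Vale.Agent.P309
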