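import Mathlib

/-! Memory-bounded one-pass learners for noiseless Gaussian linear regression. -/

open MeasureTheory ProbabilityTheory
open scoped ENNReal

namespace Vale.Agent.P309

/-- A one-pass learner with persistent state space `V` for signals on the unit sphere of `E`.
`init` is the law of the initial state (with a flag: `true` means stop at once);
`step t` is the randomized measurable rule at index `t`: from the current state and the current
pair (row, label) it draws the new state and the stopping decision;
`out t` is the randomized output rule applied to the final state when stopping at index `t`. -/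
structure Learner (E : Type) [NormedAddCommGroup E] [MeasurableSpace E]
    (V : Type) [MeasurableSpace V] where
  init : Measure (V × Bool)
  step : ℕ → Kernel (V × E × ℝ) (V × Bool)
  out : ℕ → Kernel V (Metric.sphere (0 : E) 1)
  init_prob : IsProbabilityMeasure init
  step_markov : ∀ t, IsMarkovKernel (step t)
  out_markov : ∀ t, IsMarkovKernel (out t)

variable {E : Type} [NormedAddCommGroup E] [InnerProductSpace ℝ E] [FiniteDimensional ℝ E]
  [MeasurableSpace E] [BorelSpace E] {V : Type} [MeasurableSpace V]

/-- Probability that the output made from final state `v` at index `t` is within angle `ε`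
of the signal `s`. -/
noncomputable def Learner.win (L : Learner E V) (ε : ℝ) (t : ℕ) (v : V) (s : E) : ℝ≥0∞ :=
  L.out t v {u | Real.arccos (inner ℝ (u : E) s) ≤ ε}

/-- Success probability for the signal `s` when the learner has not stopped, is in state `v`
after `t` samples, and may read at most `r` further samples. -/
noncomputable def Learner.succ (L : Learner E V) (ε : ℝ) : ℕ → ℕ → V → E → ℝ≥0∞
  | 0, t, v, s => L.win ε t v s
  | r + 1, t, v, s =>
      ∫⁻ x, ∫⁻ p, (if p.2 = true then L.win ε (t + 1) p.1 s else L.succ ε r (t + 1) p.1 s)
        ∂(L.step (t + 1) (v, x, inner ℝ x s)) ∂(stdGaussian E)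

variable (E) in
/-- The uniform probability measure on the unit sphere. -/
noncomputable def uniformSphere : Measure (Metric.sphere (0 : E) 1) :=
  ((volume : Measure E).toSphere Set.univ)⁻¹ • (volume : Measure E).toSphere

/-- Success probability at accuracy `ε` with horizon `T` for a uniformly random signal. -/
noncomputable def Learner.successProb (L : Learner E V) (T : ℕ) (ε : ℝ) : ℝ≥0∞ :=
  ∫⁻ s : Metric.sphere (0 : E) 1,
    ∫⁻ p, (if p.2 = true then L.win ε 0 p.1 s else L.succ ε T 0 p.1 s) ∂L.init
      ∂(uniformSphere E)

end Vale.Agent.P309
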