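import Mathlib

/-! Gaussian facts: small-ball estimate along a new direction, exponential moments. -/

open MeasureTheory ProbabilityTheory Set
open scoped ENNReal NNReal RealInnerProductSpace

namespace Vale.Agent.P309

variable {E : Type*} [NormedAddCommGroup E] [InnerProductSpace ℝ E] [FiniteDimensional ℝ E]
  [MeasurableSpace E] [BorelSpace E]

lemma gauss_map_inner (u : E) :
    (stdGaussian E).map (fun x => ⟪x, u⟫) = gaussianReal 0 (‖u‖₊ ^ 2) := by
  have h := IsGaussian.map_eq_gaussianReal (μ := stdGaussian E) (innerSL ℝ u)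
  rw [integral_strongDual_stdGaussian, variance_dual_stdGaussian, innerSL_apply_norm] at h
  have e1 : (fun x : E => ⟪x, u⟫) = ⇑(innerSL ℝ u) := by
    ext x; simp [real_inner_comm]
  have e2 : (‖u‖ ^ 2).toNNReal = ‖u‖₊ ^ 2 := by
    ext; simp
  rw [e1, h, e2]

lemma small_one {D δ : ℝ} (r : ℝ) (hD : 0 < D) :
    gaussianReal 0 1 {c : ℝ | |c * D + r| ≤ δ} ≤ ENNReal.ofReal (δ / D) := by
  rw [gaussianReal_apply 0 one_ne_zero]
  have hs : {c : ℝ | |c * D + r| ≤ δ} ⊆ Icc ((-δ - r) / D) ((δ - r) / D) := by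
    intro c hc
    have hc' : |c * D + r| ≤ δ := hc
    rw [abs_le] at hc'
    exact ⟨by rw [div_le_iff₀ hD]; linarith, by rw [le_div_iff₀ hD]; linarith⟩
  have hp : ∀ x, gaussianPDF 0 1 x ≤ ENNReal.ofReal (1 / 2) := by
    intro x
    refine ENNReal.ofReal_le_ofReal ?_
    unfold gaussianPDFReal
    have h1 : (2 : ℝ) ≤ √(2 * Real.pi * (1 : ℝ≥0)) := by
      refine Real.le_sqrt_of_sq_le ?_
      have := Real.pi_gt_three
      simp only [NNReal.coe_one]
      linarith
    have h2 : Real.exp (-(x - 0) ^ 2 / (2 * (1 : ℝ≥0))) ≤ 1 := by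
      rw [Real.exp_le_one_iff]
      refine div_nonpos_of_nonpos_of_nonneg (by nlinarith [sq_nonneg (x - 0)]) (by simp)
    have h3 : (√(2 * Real.pi * (1 : ℝ≥0)))⁻¹ ≤ 1 / 2 := by
      rw [one_div]; exact inv_anti₀ (by norm_num) h1
    calc _ ≤ (1 / 2) * 1 := mul_le_mul h3 h2 (Real.exp_pos _).le (by norm_num)
      _ = _ := by norm_num
  calc _ ≤ ∫⁻ _ in Icc ((-δ - r) / D) ((δ - r) / D), ENNReal.ofReal (1 / 2) :=
        lintegral_mono' (Measure.restrict_mono hs le_rfl) hp
    _ = _ := by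
        rw [setLIntegral_const, Real.volume_Icc, ← ENNReal.ofReal_mul (by norm_num)]
        congr 1
        field_simp
        ring

lemma indep_dir {e : E} (he : ‖e‖ = 1) :
    IndepFun (fun x : E => ⟪x, e⟫) (fun x : E => x - ⟪x, e⟫ • e) (stdGaussian E) := by
  let L : E →L[ℝ] ℝ × E :=
    (innerSL ℝ e).prod (ContinuousLinearMap.id ℝ E - (innerSL ℝ e).smulRight e)
  have hG : HasGaussianLaw (fun x : E => (⟪x, e⟫, x - ⟪x, e⟫ • e)) (stdGaussian E) := by
    have := (IsGaussian.hasGaussianLaw_id (μ := stdGaussian E)).map L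
    have e0 : (fun x : E => (⟪x, e⟫, x - ⟪x, e⟫ • e)) = ⇑L ∘ id := by
      ext x <;> simp [L, real_inner_comm]
    rw [e0]
    exact this
  refine hG.indepFun_of_covariance_inner fun a y => ?_
  have e1 : (fun x : E => ⟪a, ⟪x, e⟫⟫) = fun x : E => ⟪a • e, x⟫ := by
    ext x; simp [inner_smul_left, real_inner_comm, mul_comm]
  have e2 : (fun x : E => ⟪y, x - ⟪x, e⟫ • e⟫) = fun x : E => ⟪y - ⟪y, e⟫ • e, x⟫ := by
    ext x
    simp only [inner_sub_right, inner_smul_right, inner_sub_left, inner_smul_left,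
      real_inner_comm, conj_trivial]
    ring
  rw [e1, e2, ← covarianceBilin_apply_eq_cov IsGaussian.memLp_two_id, covarianceBilin_stdGaussian]
  change ⟪a • e, y - ⟪y, e⟫ • e⟫ = 0
  rw [inner_smul_left, inner_sub_right, inner_smul_right, real_inner_self_eq_norm_sq, he,
    real_inner_comm]
  simp

/-- Slab of vectors nearly orthogonal to every vector of `A`. -/
def slab (A : Finset E) (δ : ℝ) : Set E := {x | ∀ a ∈ A, |⟪x, a⟫| ≤ δ}

omit [FiniteDimensional ℝ E] in
lemma measurableSet_slab (A : Finset E) (δ : ℝ) : MeasurableSet (slab A δ) := by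
  have : slab A δ = ⋂ a ∈ A, {x : E | |⟪x, a⟫| ≤ δ} := by ext x; simp [slab]
  rw [this]
  exact Finset.measurableSet_biInter _ fun a _ =>
    (isClosed_le (by fun_prop) continuous_const).measurableSet

lemma small_ball (A : Finset E) (W : Submodule ℝ E) (hA : ∀ a ∈ A, a ∈ W) (u : E) {δ D : ℝ}
    (hδ : 0 ≤ δ) (hD : 0 < D) (hu : D ≤ ‖u - W.starProjection u‖) :
    stdGaussian E (slab A δ ∩ {x | |⟪x, u⟫| ≤ δ})
      ≤ ENNReal.ofReal (δ / D) * stdGaussian E (slab A δ) := by
  set v := u - W.starProjection u with hv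
  have hv0 : 0 < ‖v‖ := hD.trans_le hu
  set e := ‖v‖⁻¹ • v with he
  have he1 : ‖e‖ = 1 := by rw [he, norm_smul, norm_inv, norm_norm, inv_mul_cancel₀ hv0.ne']
  have hvW : ∀ w ∈ W, ⟪v, w⟫ = 0 := fun w hw => W.starProjection_inner_eq_zero u w hw
  have heW : ∀ w ∈ W, ⟪e, w⟫ = 0 := fun w hw => by rw [he, inner_smul_left, hvW w hw, mul_zero]
  have heu : ⟪e, u⟫ = ‖v‖ := by
    have : u = v + W.starProjection u := by rw [hv]; abel
    rw [this, inner_add_right, heW _ (W.starProjection_apply_mem u), add_zero, he, inner_smul_left,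
      real_inner_self_eq_norm_sq]
    simp only [conj_trivial]
    field_simp
  have hm1 : Measurable fun x : E => ⟪x, e⟫ := by fun_prop
  have hm2 : Measurable fun x : E => x - ⟪x, e⟫ • e := by fun_prop
  have hind := (indepFun_iff_map_prod_eq_prod_map_map hm2.aemeasurable hm1.aemeasurable).1
    (indep_dir he1).symm
  have hS : MeasurableSet {p : E × ℝ | p.1 ∈ slab A δ ∧ |p.2 * ‖v‖ + ⟪p.1, u⟫| ≤ δ} :=
    (measurable_fst (measurableSet_slab A δ)).inter
      (isClosed_le (f := fun p : E × ℝ => |p.2 * ‖v‖ + ⟪p.1, u⟫|) (by fun_prop)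
        continuous_const).measurableSet
  have hsl : (fun x : E => x - ⟪x, e⟫ • e) ⁻¹' slab A δ = slab A δ := by
    ext x
    simp only [slab, mem_preimage, mem_ofPred_eq]
    refine forall₂_congr fun a ha => ?_
    rw [inner_sub_left, inner_smul_left, heW a (hA a ha), mul_zero, sub_zero]
  have h1 : slab A δ ∩ {x | |⟪x, u⟫| ≤ δ} = (fun x : E => (x - ⟪x, e⟫ • e, ⟪x, e⟫)) ⁻¹'
      {p : E × ℝ | p.1 ∈ slab A δ ∧ |p.2 * ‖v‖ + ⟪p.1, u⟫| ≤ δ} := by
    ext x
    have := Set.ext_iff.1 hsl x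
    simp only [mem_preimage] at this
    simp only [mem_inter_iff, mem_ofPred_eq, mem_preimage, this]
    rw [inner_sub_left, inner_smul_left, heu]
    simp
  rw [h1, ← Measure.map_apply (hm2.prodMk hm1) hS, hind, Measure.prod_apply hS, gauss_map_inner]
  have he2 : ‖e‖₊ ^ 2 = 1 := by ext; simp [he1]
  rw [he2]
  calc _ ≤ ∫⁻ y, (slab A δ).indicator (fun _ => ENNReal.ofReal (δ / D)) y
          ∂(stdGaussian E).map (fun x : E => x - ⟪x, e⟫ • e) := by
        refine lintegral_mono fun y => ?_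
        by_cases hy : y ∈ slab A δ
        · rw [indicator_of_mem hy]
          refine le_trans (measure_mono (t := {c : ℝ | |c * ‖v‖ + ⟪y, u⟫| ≤ δ}) fun c hc => hc.2)
            ((small_one _ hv0).trans ?_)
          exact ENNReal.ofReal_le_ofReal (div_le_div_of_nonneg_left hδ hD hu)
        · have : Prod.mk y ⁻¹' {p : E × ℝ | p.1 ∈ slab A δ ∧ |p.2 * ‖v‖ + ⟪p.1, u⟫| ≤ δ} = ∅ := by
            ext c; simp [hy]
          simp [this]
    _ = _ := by
        rw [lintegral_indicator_const (measurableSet_slab A δ),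
          Measure.map_apply hm2 (measurableSet_slab A δ), hsl]

lemma exp_abs_moment {u : E} (hu : ‖u‖ ≤ 1) :
    ∫⁻ x, ENNReal.ofReal (Real.exp |⟪x, u⟫|) ∂stdGaussian E ≤ 4 := by
  have hm : Measurable fun x : E => ⟪x, u⟫ := by fun_prop
  rw [← lintegral_map (f := fun t : ℝ => ENNReal.ofReal (Real.exp |t|)) (by fun_prop) hm,
    gauss_map_inner]
  have h1 : ∀ t : ℝ, ∫⁻ x, ENNReal.ofReal (Real.exp (t * x)) ∂gaussianReal 0 (‖u‖₊ ^ 2)
      = ENNReal.ofReal (Real.exp (‖u‖ ^ 2 * t ^ 2 / 2)) := by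
    intro t
    rw [← ofReal_integral_eq_lintegral_ofReal (integrable_exp_mul_gaussianReal t)
      (Filter.Eventually.of_forall fun x => (Real.exp_pos _).le)]
    have := congrFun (mgf_id_gaussianReal (μ := 0) (v := ‖u‖₊ ^ 2)) t
    simp only [mgf, id, zero_mul, zero_add, NNReal.coe_pow, coe_nnnorm] at this
    rw [this]
  have h2 : Real.exp (‖u‖ ^ 2 / 2) ≤ 2 := by
    have a1 : ‖u‖ ^ 2 / 2 ≤ 1 / 2 := by nlinarith [norm_nonneg u]
    have a2 : Real.exp (1 / 2) ≤ 2 := by
      have := Real.exp_one_lt_three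
      have h3 : Real.exp (1 / 2) * Real.exp (1 / 2) = Real.exp 1 := by
        rw [← Real.exp_add]; norm_num
      nlinarith [Real.exp_pos (1 / 2)]
    exact (Real.exp_le_exp.2 a1).trans a2
  calc _ ≤ ∫⁻ x, (ENNReal.ofReal (Real.exp (1 * x)) + ENNReal.ofReal (Real.exp (-1 * x)))
          ∂gaussianReal 0 (‖u‖₊ ^ 2) := by
        refine lintegral_mono fun x => ?_
        rcases abs_cases x with h | h
        · rw [h.1, one_mul]; exact le_self_add
        · rw [h.1, neg_one_mul]; exact le_add_self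
    _ = ENNReal.ofReal (Real.exp (‖u‖ ^ 2 / 2)) + ENNReal.ofReal (Real.exp (‖u‖ ^ 2 / 2)) := by
        rw [lintegral_add_left (by fun_prop), h1, h1]; simp
    _ ≤ ENNReal.ofReal 2 + ENNReal.ofReal 2 := by gcongr
    _ = 4 := by norm_num

lemma lintegral_pi_cons {α : Type*} [MeasurableSpace α] (μ : Measure α) [SigmaFinite μ] {n : ℕ}
    (f : (Fin (n + 1) → α) → ℝ≥0∞) (hf : Measurable f) :
    ∫⁻ y, f y ∂Measure.pi (fun _ => μ)
      = ∫⁻ x, ∫⁻ X : Fin n → α, f (Fin.cons x X) ∂Measure.pi (fun _ => μ) ∂μ := by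
  have h := (measurePreserving_piFinSuccAbove (fun _ : Fin (n + 1) => μ) 0).symm
  rw [← h.lintegral_comp hf, lintegral_prod
    (fun a => f ((MeasurableEquiv.piFinSuccAbove (fun _ => α) 0).symm a))
    (hf.comp (MeasurableEquiv.measurable _)).aemeasurable]
  simp [MeasurableEquiv.piFinSuccAbove, Fin.insertNthEquiv, Fin.insertNth_zero']

lemma lintegral_pi_prod {α : Type*} [MeasurableSpace α] (μ : Measure α) [SigmaFinite μ] (n : ℕ)
    (f : Fin n → α → ℝ≥0∞) (hf : ∀ i, Measurable (f i)) :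
    ∫⁻ y, ∏ i, f i (y i) ∂Measure.pi (fun _ : Fin n => μ) = ∏ i, ∫⁻ x, f i x ∂μ := by
  induction n with
  | zero => simp
  | succ n ih =>
    rw [lintegral_pi_cons μ (fun y => ∏ i, f i (y i)) (Finset.measurable_prod _ fun i _ =>
      (hf i).comp (measurable_pi_apply i))]
    simp only [Fin.prod_univ_succ, Fin.cons_zero, Fin.cons_succ]
    have : ∀ x, ∫⁻ X : Fin n → α, f 0 x * ∏ i, f i.succ (X i) ∂Measure.pi (fun _ => μ)
        = f 0 x * ∏ i : Fin n, ∫⁻ x, f i.succ x ∂μ := by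
      intro x
      rw [lintegral_const_mul (f := fun X : Fin n → α => ∏ i, f i.succ (X i)) _
        (Finset.measurable_prod _ fun i _ => (hf _).comp (measurable_pi_apply i)),
        ih _ fun i => hf _]
    simp_rw [this]
    rw [lintegral_mul_const _ (hf 0)]

lemma lintegral_exp_neg_abs {b : ℝ} (hb : 0 < b) (c : ℝ) :
    ∫⁻ t, ENNReal.ofReal (Real.exp (-(|t - c| / b))) ≤ ENNReal.ofReal (7 * b) := by
  rw [lintegral_sub_right_eq_self (fun t => ENNReal.ofReal (Real.exp (-(|t| / b)))) c]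
  have h0 : ∫⁻ t : ℝ, ENNReal.ofReal (Real.exp (-|t|)) ≤ ENNReal.ofReal 7 := by
    calc _ ≤ ∫⁻ t : ℝ, ENNReal.ofReal (2 * (1 + t ^ 2)⁻¹) := by
          refine lintegral_mono fun t => ENNReal.ofReal_le_ofReal ?_
          have h1 := Real.quadratic_le_exp_of_nonneg (abs_nonneg t)
          rw [Real.exp_neg, ← div_eq_mul_inv, le_div_iff₀ (by positivity),
            inv_mul_le_iff₀ (Real.exp_pos _)]
          have := sq_abs t
          nlinarith [abs_nonneg t]
      _ = ENNReal.ofReal (∫ t : ℝ, 2 * (1 + t ^ 2)⁻¹) :=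
          (ofReal_integral_eq_lintegral_ofReal (integrable_inv_one_add_sq.const_mul 2)
            (Filter.Eventually.of_forall fun t => by positivity)).symm
      _ ≤ _ := by
          rw [integral_const_mul, integral_univ_inv_one_add_sq]
          exact ENNReal.ofReal_le_ofReal (by linarith [Real.pi_lt_d2])
  have h1 := lintegral_map (μ := volume) (f := fun t : ℝ => ENNReal.ofReal (Real.exp (-|t|)))
    (g := fun t => b⁻¹ * t) (by fun_prop) (by fun_prop)
  rw [Real.map_volume_mul_left (inv_ne_zero hb.ne'), lintegral_smul_measure, inv_inv,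
    abs_of_pos hb] at h1
  have h2 : ∀ t : ℝ, |t| / b = |b⁻¹ * t| := by
    intro t; rw [abs_mul, abs_of_pos (inv_pos.2 hb), div_eq_inv_mul]
  simp_rw [h2]
  rw [← h1, smul_eq_mul, mul_comm 7 b, ENNReal.ofReal_mul hb.le]
  gcongr

end Vale.Agent.P309
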