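import Vale.Agent.P309.Sphere

/-! The backward induction over blocks and the final lower bound. -/

open MeasureTheory ProbabilityTheory Set Metric Module Filter
open scoped ENNReal NNReal RealInnerProductSpace

namespace Vale.Agent.P309

variable {E : Type} [NormedAddCommGroup E] [InnerProductSpace ℝ E] [FiniteDimensional ℝ E]
  [MeasurableSpace E] [BorelSpace E] {V : Type} [MeasurableSpace V]

namespace Learner

variable (L : Learner E V) (ε : ℝ)

lemma good_meas : MeasurableSet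
    {p : E × sphere (0 : E) 1 | Real.arccos (inner ℝ (p.2 : E) p.1) ≤ ε} :=
  measurableSet_le (Real.measurable_arccos.comp (by fun_prop)) measurable_const

lemma measurable_win (t : ℕ) (v : V) : Measurable (L.win ε t v) := by
  have := L.out_markov t
  exact measurable_measure_prodMk_left (ν := L.out t v) (good_meas (E := E) ε)

omit [FiniteDimensional ℝ E] [BorelSpace E] in
lemma win_le_one (t : ℕ) (v : V) (s : E) : L.win ε t v s ≤ 1 := by
  have := L.out_markov t
  exact prob_le_one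

omit [FiniteDimensional ℝ E] [MeasurableSpace E] [BorelSpace E] in
lemma dist_le_of_arccos {u s : E} (hu : ‖u‖ = 1) (hs : ‖s‖ = 1) {ε : ℝ}
    (h : Real.arccos ⟪u, s⟫ ≤ ε) : ‖s - u‖ ≤ ε := by
  have h1 : |⟪u, s⟫| ≤ 1 := by simpa [hu, hs] using abs_real_inner_le_norm u s
  rw [abs_le] at h1
  have h2 := Real.cos_arccos h1.1 h1.2
  have h3 := Real.one_sub_sq_div_two_le_cos (x := Real.arccos ⟪u, s⟫)
  have h4 := Real.arccos_nonneg ⟪u, s⟫
  have h5 : ‖s - u‖ ^ 2 = 2 - 2 * ⟪u, s⟫ := by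
    rw [norm_sub_sq_real, hu, hs, real_inner_comm]; ring
  refine abs_le_of_sq_le_sq' ?_ (h4.trans h) |>.2
  nlinarith

lemma win_add (hε : ε ≤ 1 / 10) (t : ℕ) (v : V) (s s' : E) (hs : ‖s‖ = 1) (hs' : ‖s'‖ = 1)
    (h : 1 / 5 < ‖s - s'‖) : L.win ε t v s + L.win ε t v s' ≤ 1 := by
  have := L.out_markov t
  unfold win
  rw [← measure_union]
  · exact prob_le_one
  · rw [Set.disjoint_left]
    intro u h1 h2
    have hu : ‖(u : E)‖ = 1 := by simp
    have a1 := dist_le_of_arccos hu hs h1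
    have a2 := dist_le_of_arccos hu hs' h2
    have : s - s' = (s - u) - (s' - u) := by abel
    rw [this] at h
    linarith [norm_sub_le (s - u) (s' - u)]
  · exact measurable_prodMk_left (x := s') (good_meas (E := E) ε)

lemma fr_win [Nontrivial E] {α γ : ℕ} (he : finrank ℝ E = α + γ + 1) (hε : 0 < ε) (t : ℕ) (v : V) :
    Fr ((sph E).withDensity (L.win ε t v)) (6 ^ (α + γ + 1) * ENNReal.ofReal ε ^ γ) α := by
  intro z ρ hρ
  have := L.out_markov t
  rw [withDensity_apply _ measurableSet_closedBall, mul_assoc]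
  rcases le_total ρ ε with h | h
  · calc _ ≤ ∫⁻ _ in closedBall z ρ, 1 ∂sph E := lintegral_mono fun s => L.win_le_one ε t v s
      _ ≤ 6 ^ (α + γ + 1) * ENNReal.ofReal ρ ^ (α + γ) := by
          rw [setLIntegral_const, one_mul]; exact sph_cap he z hρ
      _ ≤ _ := by rw [pow_add (ENNReal.ofReal ρ), mul_comm (_ ^ α)]; gcongr
  · calc _ ≤ ∫⁻ s, L.win ε t v s ∂sph E := lintegral_mono' Measure.restrict_le_self le_rfl
      _ = ∫⁻ u, sph E {s | Real.arccos ⟪(u : E), s⟫ ≤ ε} ∂L.out t v := by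
          have h1 := Measure.prod_apply (μ := sph E) (ν := L.out t v) (good_meas (E := E) ε)
          have h2 := Measure.prod_apply_symm (μ := sph E) (ν := L.out t v) (good_meas (E := E) ε)
          exact h1.symm.trans h2
      _ ≤ ∫⁻ _u, 6 ^ (α + γ + 1) * ENNReal.ofReal ε ^ (α + γ) ∂L.out t v := by
          refine lintegral_mono fun u => le_trans (measure_mono_ae ?_) (sph_cap he (u : E) hε)
          filter_upwards [sph_ae (E := E)] with s hs hs2
          exact mem_closedBall_iff_norm.2 (dist_le_of_arccos (by simp) hs hs2)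
      _ ≤ _ := by
          rw [lintegral_const, measure_univ, mul_one, pow_add (ENNReal.ofReal ε), mul_comm (_ ^ α)]
          gcongr

variable [Fintype V] [MeasurableSingletonClass V]

omit [BorelSpace E] in
lemma succ_eq (r t : ℕ) (v : V) (s : E) : L.succ ε (r + 1) t v s
    = ∫⁻ x, ∑ p : V × Bool, L.step (t + 1) (v, x, ⟪x, s⟫) {p}
      * (if p.2 = true then L.win ε (t + 1) p.1 else L.succ ε r (t + 1) p.1) s ∂stdGaussian E := by
  rw [succ]
  refine lintegral_congr fun x => ?_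
  rw [lintegral_fintype]
  refine Finset.sum_congr rfl fun p _ => ?_
  rw [mul_comm]
  split_ifs <;> rfl

omit [InnerProductSpace ℝ E] [FiniteDimensional ℝ E] [BorelSpace E] [Fintype V] in
lemma measurable_w (t : ℕ) (v : V) (p : V × Bool) :
    Measurable fun q : E × ℝ => L.step t (v, q) {p} :=
  ((L.step t).measurable_coe (measurableSet_singleton p)).comp measurable_prodMk_left

lemma measurable_succ (r t : ℕ) (v : V) : Measurable (L.succ ε r t v) := by
  induction r generalizing t v with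
  | zero => exact L.measurable_win ε t v
  | succ r ih =>
    have e : L.succ ε (r + 1) t v = fun s => ∫⁻ x, ∑ p : V × Bool,
        L.step (t + 1) (v, x, ⟪x, s⟫) {p} * (if p.2 = true then L.win ε (t + 1) p.1
          else L.succ ε r (t + 1) p.1) s ∂stdGaussian E := funext (L.succ_eq ε r t v)
    rw [e]
    refine Measurable.lintegral_prod_right' (f := fun q : E × E => ∑ p : V × Bool,
        L.step (t + 1) (v, q.2, ⟪q.2, q.1⟫) {p} * (if p.2 = true then L.win ε (t + 1) p.1
          else L.succ ε r (t + 1) p.1) q.1) (Finset.measurable_sum _ fun p _ => ?_)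
    have hm : Measurable (if p.2 = true then L.win ε (t + 1) p.1
        else L.succ ε r (t + 1) p.1) := by
      split_ifs
      · exact L.measurable_win ε _ _
      · exact ih _ _
    exact ((L.measurable_w (t + 1) v p).comp (by fun_prop)).mul (hm.comp measurable_fst)

/-- The family of continuation functions at the end of a block. -/
noncomputable def fam (r t j : ℕ) (u : V × Fin (j + 2)) : E → ℝ≥0∞ :=
  if (u.2 : ℕ) ≤ j then L.win ε (t + u.2) u.1 else L.succ ε r (t + j) u.1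

lemma measurable_fam (r t j : ℕ) (u : V × Fin (j + 2)) : Measurable (L.fam ε r t j u) := by
  unfold fam
  split_ifs
  · exact L.measurable_win ε _ _
  · exact L.measurable_succ ε _ _ _

omit [MeasurableSingletonClass V] in
lemma mix_win (r t j i : ℕ) {t' : ℕ} (h1 : t ≤ t') (h2 : t' ≤ t + j) (w : V) :
    Mix i (L.fam ε r t j) (L.win ε t' w) := by
  have := mix_const i (L.fam ε r t j) (w, ⟨t' - t, by omega⟩)
  have e : L.fam ε r t j (w, ⟨t' - t, by omega⟩) = L.win ε t' w := by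
    unfold fam
    rw [if_pos (by simp only; omega)]
    simp only
    congr 1
    omega
  rwa [e] at this

lemma mix_succ (r t j i : ℕ) {t' : ℕ} (h1 : t ≤ t') (h2 : t' + i = t + j) (v : V) :
    Mix i (L.fam ε r t j) (L.succ ε (r + i) t' v) := by
  induction i generalizing t' v with
  | zero =>
    have := mix_const 0 (L.fam ε r t j) (v, ⟨j + 1, by omega⟩)
    have e : L.fam ε r t j (v, ⟨j + 1, by omega⟩) = L.succ ε (r + 0) t' v := by
      unfold fam
      rw [if_neg (by simp)]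
      simp only [add_zero] at h2 ⊢
      rw [h2]
    rwa [e] at this
  | succ i ih =>
    have := L.step_markov (t' + 1)
    refine mix_step (P := V × Bool) (L.measurable_fam ε r t j)
      (F := fun p => if p.2 = true then L.win ε (t' + 1) p.1 else L.succ ε (r + i) (t' + 1) p.1)
      (fun p => ?_) (L.measurable_w (t' + 1) v) (fun q => ?_)
      fun s => (L.succ_eq ε (r + i) t' v s).le
    · split_ifs
      · exact L.mix_win ε r t j i (by omega) (by omega) _
      · exact ih (by omega) (by omega) _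
    · rw [sum_measure_singleton]
      exact prob_le_one

lemma prob_le {T : ℕ} {Q : ℝ≥0∞} (h1 : ∀ v, ∫⁻ s, L.win ε 0 v s ∂sph E ≤ Q)
    (h2 : ∀ v, ∫⁻ s, L.succ ε T 0 v s ∂sph E ≤ Q) : L.successProb T ε ≤ Q := by
  have := L.init_prob
  let F : V × Bool → E → ℝ≥0∞ := fun p =>
    if p.2 = true then L.win ε 0 p.1 else L.succ ε T 0 p.1
  have hF : ∀ p, Measurable (F p) := fun p => by
    simp only [F]
    split_ifs
    · exact L.measurable_win ε _ _
    · exact L.measurable_succ ε _ _ _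
  have hQ : ∀ p, ∫⁻ s, F p s ∂sph E ≤ Q := fun p => by
    simp only [F]
    split_ifs
    · exact h1 _
    · exact h2 _
  have e : L.successProb T ε = ∫⁻ s, ∑ p, F p s * L.init {p} ∂sph E := by
    unfold successProb sph
    rw [lintegral_map (Finset.measurable_sum _ fun p _ => (hF p).mul_const _)
      measurable_subtype_coe]
    refine lintegral_congr fun s => ?_
    rw [lintegral_fintype]
    refine Finset.sum_congr rfl fun p _ => ?_
    simp only [F]
    split_ifs <;> rfl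
  rw [e, lintegral_finsetSum _ fun p _ => (hF p).mul_const _]
  calc _ ≤ ∑ p : V × Bool, Q * L.init {p} := Finset.sum_le_sum fun p _ => by
        rw [lintegral_mul_const _ (hF p)]; exact mul_le_mul_left (hQ p) _
    _ ≤ Q := by
        rw [← Finset.mul_sum, sum_measure_singleton]
        exact mul_le_of_le_one_right' prob_le_one

theorem short_bound [Nontrivial E] (hε : ε ≤ 1 / 10) {T : ℕ} (hT : 4 * T ≤ finrank ℝ E) :
    L.successProb T ε ≤ ENNReal.ofReal (63 / 100) := by
  have hw : ∀ u, ∃ t v, L.fam ε 0 0 T u = L.win ε t v := by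
    intro u
    unfold fam
    split_ifs
    · exact ⟨_, _, rfl⟩
    · exact ⟨_, _, rfl⟩
  have key : ∀ f, Mix T (L.fam ε 0 0 T) f → ∫⁻ s, f s ∂sph E ≤ ENNReal.ofReal (63 / 100) :=
    fun f hf => refl_bound hT (L.measurable_fam ε 0 0 T)
      (fun u s => by obtain ⟨t, v, h⟩ := hw u; rw [h]; exact L.win_le_one ε t v s)
      (fun u s s' hs hs' h' => by
        obtain ⟨t, v, h⟩ := hw u; rw [h]; exact L.win_add ε hε t v s s' hs hs' h') hf
  refine L.prob_le ε (fun v => key _ (L.mix_win ε 0 0 T T le_rfl (Nat.zero_le _) v)) fun v => ?_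
  have := L.mix_succ ε 0 0 T T le_rfl rfl v
  rw [zero_add] at this
  exact key _ this

omit [InnerProductSpace ℝ E] [FiniteDimensional ℝ E] [BorelSpace E] in
lemma _root_.Vale.Agent.P309.Fr.mono {ν : Measure E} {η η' : ℝ≥0∞} {α : ℕ} (h : Fr ν η α)
    (hη : η ≤ η') : Fr ν η' α := fun z ρ hρ => (h z ρ hρ).trans (by gcongr)

lemma fr_succ [Nontrivial E] {p γ : ℕ} (he : finrank ℝ E = (4 * p + 1) + γ + 1) (hε : 0 < ε)
    {Θ : ℝ≥0∞} (hΘ0 : Θ ≠ 0) (hΘt : Θ ≠ ⊤)
    (hΘ : (Fintype.card V : ℝ≥0∞) * (p + 2 : ℕ) ≤ Θ ^ p) (b r t : ℕ) (hr : r ≤ b * p) (v : V) :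
    Fr ((sph E).withDensity (L.succ ε r t v))
      ((2 * 4 ^ (4 * p + 1) * Θ * (5 ^ finrank ℝ E * 56 ^ p) + 1) ^ b
        * (6 ^ (4 * p + 1 + γ + 1) * ENNReal.ofReal ε ^ γ)) (4 * p + 1) := by
  set Λ : ℝ≥0∞ := 2 * 4 ^ (4 * p + 1) * Θ * (5 ^ finrank ℝ E * 56 ^ p) + 1 with hΛ
  have hΛ1 : 1 ≤ Λ := le_add_self
  have hΛt : Λ ≠ ⊤ := by rw [hΛ]; finiteness
  induction b generalizing r t v with
  | zero =>
    obtain rfl : r = 0 := by omega
    rw [pow_zero, one_mul]
    exact L.fr_win ε he hε t v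
  | succ b ih =>
    obtain ⟨j, r', hj, hr', rfl⟩ : ∃ j r', j ≤ p ∧ r' ≤ b * p ∧ r = r' + j :=
      ⟨min r p, r - min r p, min_le_right _ _, by rw [add_mul] at hr; omega, by omega⟩
    have hα : 4 * p + 1 = j + (4 * p + 1 - j) := by omega
    have hη0 : Λ ^ b * (6 ^ (4 * p + 1 + γ + 1) * ENNReal.ofReal ε ^ γ) ≠ 0 := by
      have : Λ ≠ 0 := (lt_of_lt_of_le one_pos hΛ1).ne'
      have h2 : ENNReal.ofReal ε ≠ 0 := by simpa using hε
      simp [this, h2]
    have key := block (sph E) (L.measurable_fam ε r' t j) hη0 (by finiteness) hΘ0 hΘt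
      (β := 4 * p + 1 - j) (n := p) (by omega) (le_trans (by
        rw [Fintype.card_prod, Fintype.card_fin]
        push_cast
        gcongr) hΘ) (fun u => by
        rw [← hα]
        unfold fam
        split_ifs
        · exact (L.fr_win ε he hε _ _).mono (le_mul_of_one_le_left' (one_le_pow₀ hΛ1))
        · exact ih _ _ hr' _) (L.mix_succ ε r' t j j le_rfl rfl v)
    rw [← hα] at key
    refine key.mono ?_
    rw [pow_succ' Λ, mul_assoc Λ, hΛ]
    gcongr
    norm_num

theorem long_bound [Nontrivial E] {p γ : ℕ} (he : finrank ℝ E = (4 * p + 1) + γ + 1) (hε : 0 < ε)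
    {Θ : ℝ≥0∞} (hΘ0 : Θ ≠ 0) (hΘt : Θ ≠ ⊤)
    (hΘ : (Fintype.card V : ℝ≥0∞) * (p + 2 : ℕ) ≤ Θ ^ p) (b T : ℕ) (hT : T ≤ b * p) :
    L.successProb T ε ≤ (2 * 4 ^ (4 * p + 1) * Θ * (5 ^ finrank ℝ E * 56 ^ p) + 1) ^ b
        * (6 ^ (4 * p + 1 + γ + 1) * ENNReal.ofReal ε ^ γ) := by
  have key : ∀ (f : E → ℝ≥0∞) (η : ℝ≥0∞), Fr ((sph E).withDensity f) η (4 * p + 1) →
      ∫⁻ s, f s ∂sph E ≤ η := by
    intro f η h
    have h1 := h 0 1 one_pos
    rw [withDensity_apply _ measurableSet_closedBall, Measure.restrict_eq_self_of_ae_mem] at h1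
    · simpa using h1
    · filter_upwards [sph_ae (E := E)] with s hs
      simp [hs]
  exact L.prob_le ε (fun v => key _ _ (L.fr_succ ε he hε hΘ0 hΘt hΘ b 0 0 (Nat.zero_le _) v))
    fun v => key _ _ (L.fr_succ ε he hε hΘ0 hΘt hΘ b T 0 hT v)

end Learner

theorem main (A : ℝ) : ∃ c : ℝ, 0 < c ∧ ∀ d : ℕ, 16 ≤ d →
    ∀ (E : Type) [NormedAddCommGroup E] [InnerProductSpace ℝ E] [FiniteDimensional ℝ E]
      [MeasurableSpace E] [BorelSpace E], finrank ℝ E = d → ∀ ε : ℝ, 0 < ε → ε ≤ 1 / 10 →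
      ∀ M N T : ℕ, (M : ℝ) ≤ A * (d : ℝ) ^ 2 → N ≤ 2 ^ M → ∀ L : Learner E (Fin N),
        2 / 3 ≤ L.successProb T ε → c * d * Real.log (1 / ε) ≤ T := by
  set a := ⌈16 * A⌉₊ with ha
  refine ⟨1 / (80 * a + 544), by positivity, ?_⟩
  intro d hd E _ _ _ _ _ hE ε hε0 hε M N T hM hN L hL
  have : Nontrivial E := Module.nontrivial_of_finrank_pos (R := ℝ) (by omega)
  have h23 : (2 / 3 : ℝ≥0∞) = ENNReal.ofReal (2 / 3) := by
    rw [ENNReal.ofReal_div_of_pos (by norm_num)]; simp
  rw [h23] at hL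
  have hT : d < 4 * T := by
    by_contra hcon
    have := hL.trans (L.short_bound ε hε (T := T) (by omega))
    rw [ENNReal.ofReal_le_ofReal_iff (by norm_num)] at this
    norm_num at this
  obtain ⟨p, hp⟩ : ∃ p, p = d / 8 := ⟨_, rfl⟩
  obtain ⟨γ, hγ⟩ : ∃ γ, d = 4 * p + 1 + γ + 1 := ⟨d - (4 * p + 2), by omega⟩
  have hp0 : 0 < p := by omega
  have hd0 : (0 : ℝ) < d := by exact_mod_cast (show 0 < d by omega)
  have hMp : M / p ≤ a * d := by
    have h1 : (M : ℝ) ≤ (a * d * p : ℕ) := by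
      have h2 : 16 * A ≤ a := Nat.le_ceil _
      have h3 : (d : ℝ) ≤ 16 * p := by exact_mod_cast (show d ≤ 16 * p by omega)
      have h4 : (0 : ℝ) ≤ a := Nat.cast_nonneg _
      push_cast
      nlinarith [mul_le_mul_of_nonneg_left h3 (mul_nonneg h4 hd0.le),
        mul_le_mul_of_nonneg_right h2 (sq_nonneg (d : ℝ))]
    exact Nat.div_le_of_le_mul (by rw [mul_comm]; exact_mod_cast h1)
  have hΘ : N * (p + 2) ≤ (2 ^ (M / p + 3)) ^ p := by
    have h1 : p + 2 ≤ 2 ^ (2 * p) := by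
      have := Nat.lt_two_pow_self (n := 2 * p)
      omega
    have h2 : M + 2 * p ≤ (M / p + 3) * p := by
      have := Nat.div_add_mod M p
      have := Nat.mod_lt M hp0
      nlinarith
    calc _ ≤ 2 ^ M * 2 ^ (2 * p) := Nat.mul_le_mul hN h1
      _ ≤ _ := by
        rw [← pow_add, ← pow_mul]
        exact Nat.pow_le_pow_right (by norm_num) h2
  have hb : T ≤ (T / p + 1) * p := by
    have := Nat.div_add_mod T p
    have := Nat.mod_lt T hp0
    nlinarith
  have key := hL.trans (L.long_bound ε (hE.trans hγ) hε0 (Θ := 2 ^ (M / p + 3)) (by simp)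
    (by simp) (by rw [Fintype.card_fin]; exact_mod_cast hΘ) (T / p + 1) T hb)
  have hΛ : 2 * 4 ^ (4 * p + 1) * 2 ^ (M / p + 3) * (5 ^ d * 56 ^ p) + 1 ≤ 2 ^ ((6 + a) * d) := by
    have h1 : 5 ^ d ≤ 2 ^ (3 * d) := by rw [pow_mul]; exact Nat.pow_le_pow_left (by norm_num) _
    have h2 : 56 ^ p ≤ 2 ^ (6 * p) := by rw [pow_mul]; exact Nat.pow_le_pow_left (by norm_num) _
    have h3 : 4 ^ (4 * p + 1) = 2 ^ (2 * (4 * p + 1)) := by rw [pow_mul]; norm_num
    have h4 : 2 * 4 ^ (4 * p + 1) * 2 ^ (M / p + 3) * (5 ^ d * 56 ^ p)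
        ≤ 2 ^ (1 + 2 * (4 * p + 1) + (M / p + 3) + (3 * d + 6 * p)) := by
      rw [h3, pow_add 2 _ (3 * d + 6 * p), pow_add 2 _ (M / p + 3), pow_add 2 1,
        pow_add 2 (3 * d), pow_one]
      gcongr
    have h5 : 2 ^ (1 + 2 * (4 * p + 1) + (M / p + 3) + (3 * d + 6 * p) + 1) ≤ 2 ^ ((6 + a) * d) :=
      Nat.pow_le_pow_right (by norm_num) (by rw [add_mul]; omega)
    have h6 := Nat.one_le_two_pow (n := 1 + 2 * (4 * p + 1) + (M / p + 3) + (3 * d + 6 * p))
    rw [pow_succ] at h5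
    omega
  have h6 : 6 ^ d ≤ 2 ^ (3 * d) := by rw [pow_mul]; exact Nat.pow_le_pow_left (by norm_num) _
  rw [hE, ← hγ] at key
  have key2 : ENNReal.ofReal (2 / 3)
      ≤ ENNReal.ofReal (2 ^ ((6 + a) * d * (T / p + 1) + 3 * d) * ε ^ γ) := by
    refine key.trans ?_
    rw [ENNReal.ofReal_mul (by positivity), ENNReal.ofReal_pow hε0.le,
      ENNReal.ofReal_pow (by norm_num), ENNReal.ofReal_ofNat, pow_add _ _ (3 * d),
      mul_assoc (_ ^ _) (_ ^ (3 * d)), pow_mul _ _ (T / p + 1)]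
    exact mul_le_mul' (pow_le_pow_left' (by exact_mod_cast hΛ) _)
      (mul_le_mul_left (by exact_mod_cast h6) _)
  rw [ENNReal.ofReal_le_ofReal_iff (by positivity)] at key2
  have key3 := Real.log_le_log (by norm_num) key2
  rw [Real.log_mul (by positivity) (by positivity), Real.log_pow, Real.log_pow] at key3
  have l1 : Real.log (1 / ε) = - Real.log ε := by rw [one_div, Real.log_inv]
  have l2 : Real.log 2 ≤ 1 := by linarith [Real.log_two_lt_d9]
  have l3 : -1 ≤ Real.log (2 / 3) := by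
    have := Real.one_sub_inv_le_log_of_pos (show (0 : ℝ) < 2 / 3 by norm_num)
    linarith
  have l4 : 0 ≤ - Real.log ε := by
    have := Real.log_nonpos hε0.le (by linarith)
    linarith
  have r1 : (d : ℝ) ≤ 4 * γ := by exact_mod_cast (show d ≤ 4 * γ by omega)
  have r2 : (d : ℝ) * (T / p : ℕ) ≤ 16 * T := by
    have h1 : d * (T / p) ≤ 16 * T := by
      have := Nat.mul_div_le T p
      calc d * (T / p) ≤ 16 * p * (T / p) := Nat.mul_le_mul_right _ (by omega)
        _ ≤ _ := by rw [mul_assoc]; omega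
    exact_mod_cast h1
  have r3 : (d : ℝ) ≤ 4 * T := by exact_mod_cast hT.le
  have r4 : (1 : ℝ) ≤ d := by exact_mod_cast (show 1 ≤ d by omega)
  have ha0 : (0 : ℝ) ≤ a := Nat.cast_nonneg _
  have r5 : (((6 + a) * d * (T / p + 1) + 3 * d : ℕ) : ℝ) * Real.log 2
      ≤ (6 + a) * (16 * T + d) + 3 * d := by
    refine (mul_le_of_le_one_right (Nat.cast_nonneg _) l2).trans ?_
    push_cast
    nlinarith
  rw [l1, mul_assoc, one_div, inv_mul_le_iff₀ (by positivity)]
  have r6 : (d : ℝ) * -Real.log ε ≤ 4 * γ * -Real.log ε := mul_le_mul_of_nonneg_right r1 l4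
  nlinarith [mul_le_mul_of_nonneg_left r3 ha0]

end Vale.Agent.P309
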