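import Vale.Agent.P309.Block

/-! One block of samples multiplies the Frostman constant by a bounded factor. -/

open MeasureTheory ProbabilityTheory Set Metric Module Filter
open scoped ENNReal NNReal RealInnerProductSpace

namespace Vale.Agent.P309

variable {E : Type*} [NormedAddCommGroup E] [InnerProductSpace ℝ E] [FiniteDimensional ℝ E]
  [MeasurableSpace E] [BorelSpace E] {k : ℕ}

/-- Region containing the labels of all points of a ball. -/
def Reg (N : Finset E) (z : E) (ρ : ℝ) (X : Fin k → E) : Set (Fin k → ℝ) :=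
  ⋃ n ∈ N, {y | ∑ i, |y i - ⟪X i, z⟫| ≤ 2 * ρ * ∑ i, |⟪X i, n⟫|}

omit [FiniteDimensional ℝ E] [MeasurableSpace E] [BorelSpace E] in
lemma measurableSet_Reg (N : Finset E) (z : E) (ρ : ℝ) (X : Fin k → E) :
    MeasurableSet (Reg N z ρ X) :=
  Finset.measurableSet_biUnion _ fun _ _ => measurableSet_le (by fun_prop) measurable_const

omit [MeasurableSpace E] [BorelSpace E] in
lemma obs_mem_Reg {N : Finset E} (hN : ∀ x : E, ‖x‖ ≤ 1 → ∃ n ∈ N, ‖x - n‖ ≤ 1 / 2) {z s : E}
    {ρ : ℝ} (hρ : 0 < ρ) (hs : s ∈ closedBall z ρ) (X : Fin k → E) : obs X s ∈ Reg N z ρ X := by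
  let φ : E → ℝ := fun u => ∑ i, |⟪X i, u⟫|
  have hφ : Continuous φ := by fun_prop
  obtain ⟨u, hu, hmax⟩ := (isCompact_closedBall (0 : E) 1).exists_isMaxOn
    ⟨0, by simp⟩ hφ.continuousOn
  have hsm : ∀ (c : ℝ) (v : E), φ (c • v) = |c| * φ v := by
    intro c v
    simp only [φ, inner_smul_right, abs_mul, Finset.mul_sum]
  have hadd : ∀ v w : E, φ (v + w) ≤ φ v + φ w := by
    intro v w
    simp only [φ, inner_add_right, ← Finset.sum_add_distrib]
    exact Finset.sum_le_sum fun i _ => abs_add_le _ _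
  obtain ⟨n, hn, hun⟩ := hN u (by simpa using hu)
  have h1 : φ ((2 : ℝ) • (u - n)) ≤ φ u := hmax (by
    rw [mem_closedBall, dist_zero_right, norm_smul, Real.norm_two]; linarith)
  have h2 : φ u ≤ φ n + φ (u - n) := by simpa using hadd n (u - n)
  rw [hsm, abs_two] at h1
  have h3 : φ (ρ⁻¹ • (s - z)) ≤ φ u := hmax (by
    rw [mem_closedBall, dist_zero_right, norm_smul, norm_inv, Real.norm_of_nonneg hρ.le,
      inv_mul_le_iff₀ hρ, mul_one, ← dist_eq_norm]
    exact hs)
  rw [hsm, abs_of_pos (inv_pos.2 hρ), inv_mul_le_iff₀ hρ] at h3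
  refine mem_biUnion hn ?_
  change ∑ i, |obs X s i - ⟪X i, z⟫| ≤ 2 * ρ * φ n
  have e : ∑ i, |obs X s i - ⟪X i, z⟫| = φ (s - z) := by
    simp only [φ, obs, inner_sub_right]
  rw [e]
  nlinarith

omit [FiniteDimensional ℝ E] [MeasurableSpace E] [BorelSpace E] in
lemma vol_Reg (N : Finset E) (z : E) {ρ : ℝ} (hρ : 0 < ρ) (X : Fin k → E) :
    volume (Reg N z ρ X) ≤ ∑ n ∈ N, ∏ i,
      (ENNReal.ofReal (Real.exp |⟪X i, n⟫|) * ENNReal.ofReal (14 * ρ)) := by
  refine (measure_biUnion_finset_le _ _).trans (Finset.sum_le_sum fun n _ => ?_)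
  rw [← lintegral_indicator_one (measurableSet_le (by fun_prop) measurable_const)]
  calc _ ≤ ∫⁻ y : Fin k → ℝ, ∏ i, (ENNReal.ofReal (Real.exp |⟪X i, n⟫|)
        * ENNReal.ofReal (Real.exp (-(|y i - ⟪X i, z⟫| / (2 * ρ))))) := by
        refine lintegral_mono fun y => indicator_apply_le' (fun hy => ?_) fun _ => zero_le
        simp_rw [← ENNReal.ofReal_mul (Real.exp_pos _).le, ← Real.exp_add]
        rw [← ENNReal.ofReal_prod_of_nonneg fun i _ => (Real.exp_pos _).le, ← Real.exp_sum,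
          Pi.one_apply, ENNReal.one_le_ofReal, Real.one_le_exp_iff, Finset.sum_add_distrib,
          Finset.sum_neg_distrib, ← Finset.sum_div, ← sub_eq_add_neg, sub_nonneg,
          div_le_iff₀ (by positivity), mul_comm]
        exact hy
    _ = ∏ i, ∫⁻ t : ℝ, (ENNReal.ofReal (Real.exp |⟪X i, n⟫|)
        * ENNReal.ofReal (Real.exp (-(|t - ⟪X i, z⟫| / (2 * ρ))))) :=
        lintegral_pi_prod volume k (fun i t => ENNReal.ofReal (Real.exp |⟪X i, n⟫|)
          * ENNReal.ofReal (Real.exp (-(|t - ⟪X i, z⟫| / (2 * ρ))))) fun i => by fun_prop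
    _ ≤ _ := by
        refine Finset.prod_le_prod' fun i _ => ?_
        rw [lintegral_const_mul _ (by fun_prop)]
        gcongr
        refine (lintegral_exp_neg_abs (by positivity) _).trans (le_of_eq ?_)
        congr 1; ring

lemma integral_vol_Reg {N : Finset E} (hN : ∀ n ∈ N, ‖n‖ ≤ 1) (ρ : ℝ) :
    ∫⁻ X : Fin k → E, ∑ n ∈ N, ∏ i,
      (ENNReal.ofReal (Real.exp |⟪X i, n⟫|) * ENNReal.ofReal (14 * ρ)) ∂Gam E k
      ≤ N.card * (56 ^ k * ENNReal.ofReal ρ ^ k) := by
  rw [lintegral_finsetSum _ fun n _ => Finset.measurable_prod _ fun i _ => by fun_prop]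
  refine (Finset.sum_le_card_nsmul _ _ _ fun n hn => ?_).trans (le_of_eq (nsmul_eq_mul _ _))
  rw [lintegral_pi_prod (stdGaussian E) k (fun _ x => ENNReal.ofReal (Real.exp |⟪x, n⟫|)
    * ENNReal.ofReal (14 * ρ)) fun i => by fun_prop, Finset.prod_const, Finset.card_univ,
    Fintype.card_fin, ← mul_pow, lintegral_mul_const _ (by fun_prop)]
  refine pow_le_pow_left' ?_ k
  calc _ ≤ 4 * ENNReal.ofReal (14 * ρ) := by gcongr; exact exp_abs_moment (hN n hn)
    _ = _ := by
        rw [ENNReal.ofReal_mul (by norm_num), ENNReal.ofReal_ofNat, ← mul_assoc]; norm_num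

variable {U : Type*} [Fintype U]

/-- `f` is dominated by a randomized choice among the `g u` made from `k` labelled samples. -/
def Mix (k : ℕ) (g : U → E → ℝ≥0∞) (f : E → ℝ≥0∞) : Prop :=
  ∃ κ : U → (Fin k → E) × (Fin k → ℝ) → ℝ≥0∞, (∀ u, Measurable (κ u)) ∧
    (∀ p, ∑ u, κ u p ≤ 1) ∧ ∀ s, f s ≤ ∫⁻ X, ∑ u, κ u (X, obs X s) * g u s ∂Gam E k

lemma measurable_mix {κ : U → (Fin k → E) × (Fin k → ℝ) → ℝ≥0∞} (hκ : ∀ u, Measurable (κ u))
    {g : U → E → ℝ≥0∞} (hg : ∀ u, Measurable (g u)) :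
    Measurable fun p : (Fin k → E) × E => ∑ u, κ u (p.1, obs p.1 p.2) * g u p.2 :=
  Finset.measurable_sum _ fun u _ =>
    ((hκ u).comp (measurable_fst.prodMk measurable_obs)).mul ((hg u).comp measurable_snd)

lemma measurable_mix' {κ : U → (Fin k → E) × (Fin k → ℝ) → ℝ≥0∞} (hκ : ∀ u, Measurable (κ u))
    {g : U → E → ℝ≥0∞} (hg : ∀ u, Measurable (g u)) (s : E) :
    Measurable fun X : Fin k → E => ∑ u, κ u (X, obs X s) * g u s :=
  (measurable_mix hκ hg).comp measurable_prodMk_right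

theorem block (μ : Measure E) [SFinite μ] {g : U → E → ℝ≥0∞} (hgm : ∀ u, Measurable (g u))
    {η Θ : ℝ≥0∞} (hη0 : η ≠ 0) (hηt : η ≠ ⊤) (hΘ0 : Θ ≠ 0) (hΘt : Θ ≠ ⊤) {β n : ℕ}
    (hβ : 3 * n + 1 ≤ β) (hU : (Fintype.card U : ℝ≥0∞) ≤ Θ ^ n)
    (hg : ∀ u, Fr (μ.withDensity (g u)) η (k + β)) {f : E → ℝ≥0∞} (hf : Mix k g f) :
    Fr (μ.withDensity f) ((2 * 4 ^ (k + β) * Θ * (5 ^ finrank ℝ E * 56 ^ k) + 1) * η) (k + β) := by
  intro z ρ hρ
  obtain ⟨κ, hκ, hκ1, hf⟩ := hf
  obtain ⟨N, hN1, hN2, hN3⟩ := net_scaled (0 : E) (R := 1 / 2) (by norm_num)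
  simp only [sub_zero] at hN2 hN3
  set L : ℝ≥0∞ := 2 * 4 ^ (k + β) * η * ENNReal.ofReal ρ ^ β with hL
  have hρ0 : ENNReal.ofReal ρ ≠ 0 := by simpa using hρ
  have hL0 : L ≠ 0 := by rw [hL]; simp [hη0, hρ0]
  have hLt : L ≠ ⊤ := by rw [hL]; finiteness
  have hl0 : L * Θ ≠ 0 := mul_ne_zero hL0 hΘ0
  have hlt : L * Θ ≠ ⊤ := ENNReal.mul_ne_top hLt hΘt
  let ν : U → Measure E := fun u => (μ.withDensity (g u)).restrict (closedBall z ρ)
  have hj := measurable_mix hκ hgm
  have hpt : ∀ X : Fin k → E, ∫⁻ s in closedBall z ρ, ∑ u, κ u (X, obs X s) * g u s ∂μ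
      ≤ L * Θ * (∑ n ∈ N, ∏ i,
        (ENNReal.ofReal (Real.exp |⟪X i, n⟫|) * ENNReal.ofReal (14 * ρ)))
        + ∑ u, Ainf (ν u) n (L * Θ) X := by
    intro X
    have hob : Measurable (obs X) := measurable_obs.comp measurable_prodMk_left
    have hκX : ∀ u, Measurable fun y => κ u (X, y) := fun u => (hκ u).comp measurable_prodMk_left
    have hκ' : ∀ u, Measurable ((Reg N z ρ X).indicator fun y => κ u (X, y)) := fun u =>
      (hκX u).indicator (measurableSet_Reg N z ρ X)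
    rw [lintegral_finsetSum (f := fun u s => κ u (X, obs X s) * g u s) _
      fun u _ => ((hκX u).comp hob).mul (hgm u)]
    calc _ ≤ ∑ u, (L * Θ * (∫⁻ y, (Reg N z ρ X).indicator (fun y => κ u (X, y)) y)
          + Ainf (ν u) n (L * Θ) X) := by
          refine Finset.sum_le_sum fun u _ => le_trans (le_of_eq ?_)
            (push_fun (ν u) n X (hκ' u) (fun y => ?_) hl0 hlt)
          · simp only [ν]
            rw [restrict_withDensity measurableSet_closedBall,
              lintegral_withDensity_eq_lintegral_mul _ (hgm u)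
                (g := fun s => (Reg N z ρ X).indicator (fun y => κ u (X, y)) (obs X s))
                ((hκ' u).comp hob)]
            refine setLIntegral_congr_fun measurableSet_closedBall fun s hs => ?_
            simp only [Pi.mul_apply]
            rw [indicator_of_mem (obs_mem_Reg (fun x hx => hN3 x (by linarith)) hρ hs X), mul_comm]
          · refine indicator_apply_le' (fun _ => ?_) fun _ => zero_le
            exact (Finset.single_le_sum (f := fun u => κ u (X, y)) (fun _ _ => zero_le)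
              (Finset.mem_univ u)).trans (hκ1 _)
      _ ≤ _ := by
          rw [Finset.sum_add_distrib, ← Finset.mul_sum, ← lintegral_finsetSum _ fun u _ => hκ' u]
          gcongr
          refine le_trans ?_ (vol_Reg N z hρ X)
          rw [← lintegral_indicator_one (measurableSet_Reg N z ρ X)]
          refine lintegral_mono fun y => ?_
          by_cases hy : y ∈ Reg N z ρ X
          · simp only [indicator_of_mem hy]; exact hκ1 _
          · simp [indicator_of_notMem hy]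
  rw [withDensity_apply _ measurableSet_closedBall]
  calc _ ≤ ∫⁻ s in closedBall z ρ, ∫⁻ X, ∑ u, κ u (X, obs X s) * g u s ∂Gam E k ∂μ :=
        lintegral_mono hf
    _ = ∫⁻ X, ∫⁻ s in closedBall z ρ, ∑ u, κ u (X, obs X s) * g u s ∂μ ∂Gam E k :=
        (lintegral_lintegral_swap (f := fun X s => ∑ u, κ u (X, obs X s) * g u s)
          hj.aemeasurable).symm
    _ ≤ ∫⁻ X, (L * Θ * (∑ n ∈ N, ∏ i,
        (ENNReal.ofReal (Real.exp |⟪X i, n⟫|) * ENNReal.ofReal (14 * ρ)))
        + ∑ u, Ainf (ν u) n (L * Θ) X) ∂Gam E k := lintegral_mono hpt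
    _ ≤ L * Θ * (5 ^ finrank ℝ E * (56 ^ k * ENNReal.ofReal ρ ^ k))
        + ∑ _u : U, (L * Θ)⁻¹ ^ n * (L ^ n * (η * ENNReal.ofReal ρ ^ (k + β))) := by
        rw [lintegral_add_right _ (Finset.measurable_sum _ fun u _ => measurable_Ainf _ _ _),
          lintegral_const_mul' _ _ hlt, lintegral_finsetSum _ fun u _ => measurable_Ainf _ _ _]
        gcongr with u
        · refine (integral_vol_Reg (fun n hn => by linarith [hN2 n hn]) ρ).trans ?_
          gcongr
          exact_mod_cast hN1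
        · exact integral_Ainf (hg u) hβ z hρ _
    _ ≤ L * Θ * (5 ^ finrank ℝ E * (56 ^ k * ENNReal.ofReal ρ ^ k))
        + η * ENNReal.ofReal ρ ^ (k + β) := by
        gcongr
        rw [Finset.sum_const, Finset.card_univ, nsmul_eq_mul]
        calc _ ≤ Θ ^ n * ((L * Θ)⁻¹ ^ n * (L ^ n * (η * ENNReal.ofReal ρ ^ (k + β)))) := by gcongr
          _ = ((L * Θ)⁻¹ * (L * Θ)) ^ n * (η * ENNReal.ofReal ρ ^ (k + β)) := by
              rw [mul_pow, mul_pow]; ring
          _ = _ := by rw [ENNReal.inv_mul_cancel hl0 hlt, one_pow, one_mul]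
    _ = _ := by rw [hL]; ring

lemma mix_const (k : ℕ) (g : U → E → ℝ≥0∞) (u : U) : Mix k g (g u) := by
  classical
  refine ⟨fun v _ => if v = u then 1 else 0, fun _ => measurable_const, fun p => by simp,
    fun s => ?_⟩
  simp

lemma mix_step {P : Type*} [Fintype P] {g : U → E → ℝ≥0∞} (hg : ∀ u, Measurable (g u))
    {F : P → E → ℝ≥0∞} (hF : ∀ p, Mix k g (F p)) {w : P → E × ℝ → ℝ≥0∞}
    (hw : ∀ p, Measurable (w p)) (hw1 : ∀ q, ∑ p, w p q ≤ 1) {f : E → ℝ≥0∞}
    (hf : ∀ s, f s ≤ ∫⁻ x, ∑ p, w p (x, ⟪x, s⟫) * F p s ∂stdGaussian E) :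
    Mix (k + 1) g f := by
  choose κ hκ hκ1 hκ2 using hF
  let κ' : U → (Fin (k + 1) → E) × (Fin (k + 1) → ℝ) → ℝ≥0∞ := fun u q =>
    ∑ p, w p (q.1 0, q.2 0) * κ p u (Fin.tail q.1, Fin.tail q.2)
  have hκ' : ∀ u, Measurable (κ' u) := fun u => Finset.measurable_sum _ fun p _ =>
    ((hw p).comp (by fun_prop)).mul ((hκ p u).comp (by unfold Fin.tail; fun_prop))
  refine ⟨κ', hκ', fun q => ?_, fun s => (hf s).trans ?_⟩
  · simp only [κ']
    rw [Finset.sum_comm]
    refine le_trans (Finset.sum_le_sum fun p _ => ?_) (hw1 (q.1 0, q.2 0))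
    rw [← Finset.mul_sum]
    exact mul_le_of_le_one_right' (hκ1 p _)
  · have hm' : Measurable fun X : Fin (k + 1) → E => ∑ u, κ' u (X, obs X s) * g u s :=
      measurable_mix' hκ' hg s
    rw [lintegral_pi_cons (stdGaussian E) _ hm']
    refine lintegral_mono fun x => ?_
    have e : ∀ X : Fin k → E, ∑ u, κ' u (Fin.cons x X, obs (Fin.cons x X : Fin (k + 1) → E) s) * g u s
        = ∑ p, w p (x, ⟪x, s⟫) * ∑ u, κ p u (X, obs X s) * g u s := by
      intro X
      have e1 : Fin.tail (obs (Fin.cons x X : Fin (k + 1) → E) s) = obs X s := by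
        ext i; simp [Fin.tail, obs]
      have e2 : obs (Fin.cons x X : Fin (k + 1) → E) s 0 = ⟪x, s⟫ := by simp [obs]
      simp only [κ', Fin.cons_zero, Fin.tail_cons, e1, e2, Finset.sum_mul, Finset.mul_sum,
        mul_assoc]
      exact Finset.sum_comm
    simp_rw [e]
    have hm : ∀ p, Measurable fun X : Fin k → E => ∑ u, κ p u (X, obs X s) * g u s := fun p =>
      measurable_mix' (hκ p) hg s
    rw [lintegral_finsetSum _ fun p _ => (hm p).const_mul _]
    refine Finset.sum_le_sum fun p _ => ?_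
    rw [lintegral_const_mul _ (hm p)]
    gcongr
    exact hκ2 p s

end Vale.Agent.P309
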