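import Vale.Agent.P309.Defs
import Vale.Agent.P309.Mix

/-! The uniform measure on the sphere: caps, invariance, second moments. -/

open MeasureTheory ProbabilityTheory Set Metric Module Filter
open scoped ENNReal NNReal RealInnerProductSpace Pointwise

namespace Vale.Agent.P309

variable {E : Type} [NormedAddCommGroup E] [InnerProductSpace ℝ E] [FiniteDimensional ℝ E]
  [MeasurableSpace E] [BorelSpace E]

variable (E) in
/-- The uniform measure on the sphere, seen on the ambient space. -/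
noncomputable def sph : Measure E := (uniformSphere E).map Subtype.val

instance [Nontrivial E] : IsProbabilityMeasure (uniformSphere E) := by
  constructor
  unfold uniformSphere
  rw [Measure.smul_apply, smul_eq_mul]
  exact ENNReal.inv_mul_cancel 
    (Measure.measure_univ_ne_zero.2 (Measure.toSphere_ne_zero (volume : Measure E)))
    (measure_ne_top _ _)

instance [Nontrivial E] : IsProbabilityMeasure (sph E) :=
  Measure.isProbabilityMeasure_map measurable_subtype_coe.aemeasurable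

lemma sph_apply [Nontrivial E] {A : Set E} (hA : MeasurableSet A) :
    sph E A = (volume (ball (0 : E) 1))⁻¹ * volume (Ioo (0 : ℝ) 1 • (sphere (0 : E) 1 ∩ A)) := by
  unfold sph uniformSphere
  rw [Measure.map_apply measurable_subtype_coe hA, Measure.smul_apply, smul_eq_mul,
    Measure.toSphere_apply' _ (measurable_subtype_coe hA), Measure.toSphere_apply_univ,
    Subtype.image_preimage_coe]
  have h0 : (finrank ℝ E : ℝ≥0∞) ≠ 0 := by simpa using Module.finrank_pos.ne'
  rw [ENNReal.mul_inv (Or.inl h0) (Or.inl (by simp)), mul_mul_mul_comm,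
    ENNReal.inv_mul_cancel h0 (by simp), one_mul]

lemma sph_ae [Nontrivial E] : ∀ᵐ s ∂sph E, ‖s‖ = 1 := by
  unfold sph
  rw [ae_map_iff measurable_subtype_coe.aemeasurable
    (isClosed_eq continuous_norm continuous_const).measurableSet]
  exact Eventually.of_forall fun s => by simp

lemma sph_cap [Nontrivial E] {e : ℕ} (he : finrank ℝ E = e + 1) (z : E) {ρ : ℝ} (hρ : 0 < ρ) :
    sph E (closedBall z ρ) ≤ 6 ^ (e + 1) * ENNReal.ofReal ρ ^ e := by
  rcases le_total 1 ρ with h1 | h1
  · refine prob_le_one.trans ?_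
    have a1 : (1 : ℝ≥0∞) ≤ 6 ^ (e + 1) := one_le_pow₀ (by norm_num)
    have a2 : (1 : ℝ≥0∞) ≤ ENNReal.ofReal ρ ^ e := one_le_pow₀ (ENNReal.one_le_ofReal.2 h1)
    exact one_le_mul a1 a2
  rw [sph_apply measurableSet_closedBall]
  rcases (sphere (0 : E) 1 ∩ closedBall z ρ).eq_empty_or_nonempty with h | ⟨w, hw1, hw2⟩
  · simp [h]
  have hw : ‖w‖ = 1 := by simpa using hw1
  have hsub : Ioo (0 : ℝ) 1 • (sphere (0 : E) 1 ∩ closedBall z ρ) ⊆
      ⋃ j ∈ Finset.range (⌊1 / ρ⌋₊ + 1), closedBall (((j : ℝ) * ρ) • w) (3 * ρ) := by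
    rintro _ ⟨t, ⟨ht0, ht1⟩, s, ⟨-, hs⟩, rfl⟩
    refine mem_biUnion (x := ⌊t / ρ⌋₊) (Finset.mem_coe.2 (Finset.mem_range.2 (Nat.lt_succ_of_le
      (Nat.floor_mono (div_le_div_of_nonneg_right ht1.le hρ.le))))) ?_
    rw [mem_closedBall, dist_eq_norm]
    have e1 : t • s - ((⌊t / ρ⌋₊ : ℝ) * ρ) • w = t • (s - w) + (t - ⌊t / ρ⌋₊ * ρ) • w := by
      rw [smul_sub, sub_smul]; abel
    have a1 : ‖s - w‖ ≤ 2 * ρ := by
      rw [mem_closedBall, dist_eq_norm] at hs hw2
      have : s - w = (s - z) - (w - z) := by abel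
      rw [this]
      linarith [norm_sub_le (s - z) (w - z)]
    have a2 := Nat.floor_le (show 0 ≤ t / ρ by positivity)
    have a3 := Nat.lt_floor_add_one (t / ρ)
    rw [le_div_iff₀ hρ] at a2
    rw [div_lt_iff₀ hρ] at a3
    change ‖t • s - ((⌊t / ρ⌋₊ : ℝ) * ρ) • w‖ ≤ 3 * ρ
    rw [e1]
    refine (norm_add_le _ _).trans ?_
    rw [norm_smul, norm_smul, hw, Real.norm_of_nonneg ht0.le, Real.norm_of_nonneg (by linarith)]
    nlinarith [norm_nonneg (s - w)]
  have hb0 : volume (ball (0 : E) 1) ≠ 0 := (measure_ball_pos _ _ one_pos).ne'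
  have hbt : volume (ball (0 : E) 1) ≠ ⊤ := measure_ball_lt_top.ne
  rw [ENNReal.inv_mul_le_iff hb0 hbt]
  refine (measure_mono hsub).trans ((measure_biUnion_finset_le _ _).trans ?_)
  simp_rw [Measure.addHaar_closedBall volume _ (show 0 ≤ 3 * ρ by positivity)]
  rw [Finset.sum_const, Finset.card_range, nsmul_eq_mul, ← mul_assoc, mul_comm (volume _), he]
  refine mul_le_mul_left ?_ _
  rw [← ENNReal.ofReal_natCast, ← ENNReal.ofReal_mul (by positivity),
    ← ENNReal.ofReal_pow hρ.le, ← ENNReal.ofReal_ofNat, ← ENNReal.ofReal_pow (by norm_num),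
    ← ENNReal.ofReal_mul (by positivity)]
  refine ENNReal.ofReal_le_ofReal ?_
  have a1 : (⌊1 / ρ⌋₊ : ℝ) ≤ 1 / ρ := Nat.floor_le (by positivity)
  rw [le_div_iff₀ hρ] at a1
  have a2 : ((⌊1 / ρ⌋₊ + 1 : ℕ) : ℝ) * ρ ≤ 2 := by push_cast; linarith
  have a3 : (2 : ℝ) * 3 ^ (e + 1) ≤ 6 ^ (e + 1) := by
    rw [show (6 : ℝ) = 2 * 3 by norm_num, mul_pow]
    gcongr
    exact le_self_pow₀ (by norm_num) (by omega)
  calc _ = ((⌊1 / ρ⌋₊ + 1 : ℕ) * ρ) * 3 ^ (e + 1) * ρ ^ e := by ring
    _ ≤ 2 * 3 ^ (e + 1) * ρ ^ e := by gcongr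
    _ ≤ _ := by gcongr

lemma sph_preserving [Nontrivial E] (f : E ≃ₗᵢ[ℝ] E) : MeasurePreserving f (sph E) (sph E) := by
  have hf : Measurable f := f.continuous.measurable
  refine ⟨hf, Measure.ext fun A hA => ?_⟩
  rw [Measure.map_apply hf hA, sph_apply (hf hA), sph_apply hA]
  congr 1
  have e : Ioo (0 : ℝ) 1 • (sphere (0 : E) 1 ∩ f ⁻¹' A)
      = f ⁻¹' (Ioo (0 : ℝ) 1 • (sphere (0 : E) 1 ∩ A)) := by
    ext x
    constructor
    · rintro ⟨t, ht, s, ⟨hs1, hs2⟩, rfl⟩
      exact ⟨t, ht, f s, ⟨by simpa using hs1, hs2⟩, by simp⟩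
    · rintro ⟨t, ht, s, ⟨hs1, hs2⟩, hx⟩
      refine ⟨t, ht, f.symm s, ⟨by simpa using hs1, by simpa using hs2⟩, ?_⟩
      apply f.injective
      simpa using hx
  rw [e]
  exact f.measurePreserving.measure_preimage_emb f.toHomeomorph.measurableEmbedding _

lemma sph_second [Nontrivial E] {u : E} (hu : ‖u‖ = 1) :
    finrank ℝ E * ∫⁻ s, ENNReal.ofReal (⟪u, s⟫ ^ 2) ∂sph E = 1 := by
  have heq : ∀ v : E, ‖v‖ = 1 → ∫⁻ s, ENNReal.ofReal (⟪v, s⟫ ^ 2) ∂sph E
      = ∫⁻ s, ENNReal.ofReal (⟪u, s⟫ ^ 2) ∂sph E := by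
    intro v hv
    let R := (Submodule.span ℝ {u - v})ᗮ.reflection
    have hR : R u = v := Submodule.reflection_sub (by rw [hu, hv])
    rw [← (sph_preserving R).lintegral_comp (by fun_prop)]
    refine lintegral_congr fun s => ?_
    rw [← hR, LinearIsometryEquiv.inner_map_map]
  let b := stdOrthonormalBasis ℝ E
  calc _ = ∑ i, ∫⁻ s, ENNReal.ofReal (⟪b i, s⟫ ^ 2) ∂sph E := by
        rw [Finset.sum_congr rfl fun i _ => heq _ (b.norm_eq_one i)]
        simp
    _ = ∫⁻ _s, 1 ∂sph E := by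
        rw [← lintegral_finsetSum _ fun i _ => by fun_prop]
        refine lintegral_congr_ae ?_
        filter_upwards [sph_ae (E := E)] with s hs
        rw [← ENNReal.ofReal_sum_of_nonneg fun i _ => sq_nonneg _, b.sum_sq_inner_right, hs]
        simp
    _ = 1 := by simp

lemma sph_near [Nontrivial E] (W : Submodule ℝ E) (hW : 4 * finrank ℝ W ≤ finrank ℝ E) :
    sph E {s | ‖s - W.starProjection s‖ ≤ 1 / 10} ≤ ENNReal.ofReal (26 / 100) := by
  let c := stdOrthonormalBasis ℝ W
  have hd0 : (finrank ℝ E : ℝ≥0∞) ≠ 0 := by simpa using Module.finrank_pos.ne'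
  have h1 : 4 * ∫⁻ s, ENNReal.ofReal (‖W.starProjection s‖ ^ 2) ∂sph E ≤ 1 := by
    have e1 : ∀ s : E, ENNReal.ofReal (‖W.starProjection s‖ ^ 2)
        = ∑ i, ENNReal.ofReal (⟪(c i : E), s⟫ ^ 2) := by
      intro s
      rw [← ENNReal.ofReal_sum_of_nonneg fun i _ => sq_nonneg _]
      congr 1
      have := c.sum_sq_inner_right (W.orthogonalProjectionOnto s)
      simp only [Submodule.inner_orthogonalProjectionOnto_eq_of_mem_left] at this
      rw [this]
      rfl
    simp_rw [e1]
    rw [lintegral_finsetSum _ fun i _ => by fun_prop, ← ENNReal.mul_le_mul_iff_right hd0 (by simp),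
      mul_left_comm, Finset.mul_sum, Finset.sum_congr rfl fun i _ =>
        sph_second (u := (c i : E)) (c.norm_eq_one i)]
    simp only [Finset.sum_const, Finset.card_univ, Fintype.card_fin, nsmul_eq_mul, mul_one]
    exact_mod_cast hW
  have h2 := mul_meas_ge_le_lintegral (μ := sph E)
    (f := fun s => ENNReal.ofReal (‖W.starProjection s‖ ^ 2)) (by fun_prop)
    (ENNReal.ofReal (99 / 100))
  have h3 : sph E {s | ‖s - W.starProjection s‖ ≤ 1 / 10}
      ≤ sph E {s | ENNReal.ofReal (99 / 100) ≤ ENNReal.ofReal (‖W.starProjection s‖ ^ 2)} := by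
    refine measure_mono_ae ?_
    filter_upwards [sph_ae (E := E)] with s hs hs2
    refine ENNReal.ofReal_le_ofReal ?_
    have h4 := W.norm_sq_eq_add_norm_sq_starProjection s
    rw [Submodule.starProjection_orthogonal_val, hs] at h4
    have h5 : ‖s - W.starProjection s‖ ≤ 1 / 10 := hs2
    nlinarith [norm_nonneg (s - W.starProjection s)]
  refine h3.trans ?_
  have h4 : 4 * (ENNReal.ofReal (99 / 100) * sph E
      {s | ENNReal.ofReal (99 / 100) ≤ ENNReal.ofReal (‖W.starProjection s‖ ^ 2)}) ≤ 1 :=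
    le_trans (by gcongr) h1
  have hx : sph E {s | ENNReal.ofReal (99 / 100) ≤ ENNReal.ofReal (‖W.starProjection s‖ ^ 2)}
    ≠ ⊤ := measure_ne_top _ _
  generalize sph E {s | ENNReal.ofReal (99 / 100) ≤ ENNReal.ofReal (‖W.starProjection s‖ ^ 2)}
    = x at h4 hx ⊢
  lift x to ℝ≥0 using hx
  rw [← ENNReal.ofReal_coe_nnreal] at h4 ⊢
  rw [← ENNReal.ofReal_mul (by norm_num), ← ENNReal.ofReal_ofNat,
    ← ENNReal.ofReal_mul (by norm_num), ENNReal.ofReal_le_one] at h4
  exact ENNReal.ofReal_le_ofReal (by linarith)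

variable {U : Type*} [Fintype U]

lemma refl_bound [Nontrivial E] {T : ℕ} (hT : 4 * T ≤ finrank ℝ E) {g : U → E → ℝ≥0∞}
    (hgm : ∀ u, Measurable (g u)) (hg1 : ∀ u s, g u s ≤ 1)
    (hg2 : ∀ u s s', ‖s‖ = 1 → ‖s'‖ = 1 → 1 / 5 < ‖s - s'‖ → g u s + g u s' ≤ 1)
    {f : E → ℝ≥0∞} (hf : Mix T g f) :
    ∫⁻ s, f s ∂sph E ≤ ENNReal.ofReal (63 / 100) := by
  classical
  obtain ⟨κ, hκ, hκ1, hf⟩ := hf
  have hj := measurable_mix hκ hgm
  refine (lintegral_mono hf).trans ?_
  rw [← lintegral_lintegral_swap (f := fun X s => ∑ u, κ u (X, obs X s) * g u s) hj.aemeasurable]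
  refine le_trans (lintegral_mono (g := fun _ => ENNReal.ofReal (63 / 100)) fun X => ?_) (by simp)
  let W := Submodule.span ℝ (range X)
  have hW : finrank ℝ W ≤ T := 
    (finrank_range_le_card (R := ℝ) X).trans (by simp)
  let R := W.reflection
  have hob : ∀ s, obs X (R s) = obs X s := by
    intro s
    ext i
    have : R (X i) = X i :=
      Submodule.reflection_mem_subspace_eq_self (Submodule.subset_span (mem_range_self i))
    unfold obs
    rw [← LinearIsometryEquiv.inner_map_map R (X i) s, this]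
  have hm : Measurable fun s => ∑ u, κ u (X, obs X s) * g u s := hj.comp measurable_prodMk_left
  have hB : MeasurableSet {s : E | ‖s - W.starProjection s‖ ≤ 1 / 10} :=
    measurableSet_le (by fun_prop) measurable_const
  have key : 2 * ∫⁻ s, ∑ u, κ u (X, obs X s) * g u s ∂sph E ≤ 1 + ENNReal.ofReal (26 / 100) := by
    rw [two_mul]
    nth_rewrite 2 [← (sph_preserving R).lintegral_comp hm]
    rw [← lintegral_add_left hm]
    calc _ ≤ ∫⁻ s, (1 + {s : E | ‖s - W.starProjection s‖ ≤ 1 / 10}.indicator 1 s) ∂sph E := by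
          refine lintegral_mono_ae ?_
          filter_upwards [sph_ae (E := E)] with s hs
          rw [hob, ← Finset.sum_add_distrib]
          simp_rw [← mul_add]
          have hb : ∀ u, g u s + g u (R s)
              ≤ 1 + {s : E | ‖s - W.starProjection s‖ ≤ 1 / 10}.indicator 1 s := by
            intro u
            by_cases hsB : s ∈ {s : E | ‖s - W.starProjection s‖ ≤ 1 / 10}
            · rw [indicator_of_mem hsB]
              exact add_le_add (hg1 _ _) (hg1 _ _)
            · refine (hg2 u s (R s) hs (by simpa using hs) ?_).trans le_self_add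
              have e : s - R s = (2 : ℝ) • (s - W.starProjection s) := by
                simp only [R, Submodule.reflection_apply, two_smul]; abel
              rw [e, norm_smul, Real.norm_two]
              have : ¬ ‖s - W.starProjection s‖ ≤ 1 / 10 := hsB
              linarith [not_le.1 this]
          calc _ ≤ ∑ u, κ u (X, obs X s)
                * (1 + {s : E | ‖s - W.starProjection s‖ ≤ 1 / 10}.indicator 1 s) :=
                Finset.sum_le_sum fun u _ => mul_le_mul_right (hb u) _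
            _ ≤ _ := by
                rw [← Finset.sum_mul]
                exact mul_le_of_le_one_left' (hκ1 _)
      _ ≤ _ := by
          rw [lintegral_add_left measurable_const, lintegral_indicator_one hB]
          simp only [lintegral_const, measure_univ, mul_one]
          gcongr
          exact sph_near W (by omega)
  rw [← ENNReal.mul_le_mul_iff_right (a := 2) (by norm_num) (by norm_num)]
  refine key.trans (le_of_eq ?_)
  rw [← ENNReal.ofReal_one, ← ENNReal.ofReal_add (by norm_num) (by norm_num),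
    ← ENNReal.ofReal_ofNat, ← ENNReal.ofReal_mul (by norm_num)]
  norm_num

end Vale.Agent.P309
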